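import Crest.Agent.R213.En

/-! Row 213, block LE (owner helper24): the unweighted energies `EE j` (weights with `l = 1`). -/

set_option autoImplicit false
open Set Filter Topology

noncomputable section
namespace Crest.Agent.R213.Lx

/-- `∫ U^{(j)} G^{(j)} μ_{j+2}` -/
def PE (j : ℕ) : SF →ₗ[ℝ] SF →ₗ[ℝ] ℝ := pair 1 j ((j : ℝ) - 10)
/-- `∫ (f^{(j)})² μ_{j+2}` -/
def EE (j : ℕ) (f : SF) : ℝ := tp 1 j ((j : ℝ) - 10) f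

lemma EE_eq (j : ℕ) (f : SF) : EE j f = PE j f f := rfl

lemma PE_apply (j : ℕ) (U G : SF) : PE j U G = ig (Dn j U * Dn j G * mu (j + 2)) := by
  rw [PE, pair_apply, sub_self, lp_zero, mul_one]

lemma PE_comm (j : ℕ) (U G : SF) : PE j U G = PE j G U := pair_comm _ _ _ _ _

lemma EE_nonneg (j : ℕ) (f : SF) : 0 ≤ EE j f := tp_nonneg _ _ _ _

lemma EE_expand (j : ℕ) (f g : SF) : EE j (f - g) = EE j f - 2 * PE j f g + EE j g := by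
  simp only [EE_eq, map_sub, LinearMap.sub_apply, PE_comm j g f]; ring

lemma two_PE_le (j : ℕ) (U G : SF) : 2 * PE j U G ≤ EE j U + EE j G := by
  have := EE_nonneg j (U - G)
  rw [EE_expand] at this; linarith

lemma EE_neg (j : ℕ) (f : SF) : EE j (-f) = EE j f := by simp [EE_eq]

lemma EE_sub_comm (j : ℕ) (f g : SF) : EE j (f - g) = EE j (g - f) := by
  rw [← EE_neg, neg_sub]

lemma EE_add (j : ℕ) (f g : SF) : EE j (f + g) ≤ 2 * EE j f + 2 * EE j g := tp_add _ _ _ _ _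

lemma EE_sub (j : ℕ) (f g : SF) : EE j (f - g) ≤ 2 * EE j f + 2 * EE j g := by
  rw [sub_eq_add_neg, ← EE_neg j g]; exact EE_add _ _ _

lemma EE_tri (j : ℕ) (f g h : SF) : EE j (f - h) ≤ 2 * EE j (f - g) + 2 * EE j (g - h) := by
  have := EE_add j (f - g) (g - h)
  rwa [sub_add_sub_cancel] at this

lemma eq_zero_of_EE {f : SF} (h : EE 0 f = 0) : f = 0 := eq_zero_of_tp one_pos h

lemma EE_zero_le {f : SF} {K : ℝ} (h : ∀ x, ev x f ^ 2 ≤ K) : EE 0 f ≤ K := by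
  rw [EE_eq, PE_apply]
  refine ig_le_const fun x => ?_
  have h0 := x.2.1
  have h1 := x.2.2
  have a1 : (x : ℝ) ^ (9 + (0 + 2)) ≤ 1 := pow_le_one₀ h0 h1
  have a2 : (1 - (x : ℝ)) ^ (0 + 2) ≤ 1 := pow_le_one₀ (by linarith) (by linarith)
  have a3 : ev x (mu (0 + 2)) ≤ 1 := by
    rw [ev_mu]; exact mul_le_one₀ a1 (pow_nonneg (by linarith) _) a2
  rw [map_mul, map_mul, Dn_zero, ← sq]
  exact (mul_le_of_le_one_right (sq_nonneg _) a3).trans (h x)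

lemma tp_le_EE (j : ℕ) (b : ℝ) : ∃ C, 0 ≤ C ∧ ∀ f, tp 1 j b f ≤ C * EE j f := by
  obtain ⟨C, h0, h⟩ := tp_comp j b ((j : ℝ) - 10) 1 one_pos
  exact ⟨C, h0, h 1 1 le_rfl le_rfl le_rfl le_rfl⟩

lemma EE_le_tp (j : ℕ) (b : ℝ) : ∃ C, 0 ≤ C ∧ ∀ f, EE j f ≤ C * tp 1 j b f := by
  obtain ⟨C, h0, h⟩ := tp_comp j ((j : ℝ) - 10) b 1 one_pos
  exact ⟨C, h0, h 1 1 le_rfl le_rfl le_rfl le_rfl⟩

lemma nT_one_le (m : ℕ) (b : ℝ) : ∃ C, 0 ≤ C ∧ ∀ (f : SF) (K : ℝ), (∀ x, Tv 1 m f x ≤ K) →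
    nT 1 m b f ≤ C * K := by
  refine ⟨‖(W 1 b : CC)‖, norm_nonneg _, fun f K h => ig_le_const fun x => ?_⟩
  rw [map_mul, ev_TT, mul_comm]
  exact mul_le_mul ((le_abs_self _).trans (abs_ev_le x _)) (h x) (Tv_nonneg one_pos _ _ _)
    (norm_nonneg _)

lemma EE_le_Tv (j : ℕ) : ∃ C, 0 ≤ C ∧ ∀ (f : SF) (K : ℝ), (∀ x, Tv 1 j f x ≤ K) →
    EE j f ≤ C * K := by
  obtain ⟨C, h0, h⟩ := nT_one_le j ((j : ℝ) - 10)
  exact ⟨C, h0, fun f K hK => (tp_le_nT one_pos le_rfl _ _).trans (h f K hK)⟩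

lemma Tv_le_nT (m : ℕ) : ∃ C, 0 ≤ C ∧ ∀ (f : SF) (x : I01), Tv 1 m f x ≤ C * nT 1 (m + 15) 2 f := by
  obtain ⟨C, h0, h⟩ := sob m 2
  refine ⟨C, h0, fun f x => ?_⟩
  have := h 1 one_pos le_rfl f x
  rwa [sub_self, Real.rpow_zero, one_mul] at this

lemma Tv_le_EE (m j : ℕ) (h : m + 15 ≤ j) : ∃ C, 0 ≤ C ∧ ∀ (f : SF) (x : I01),
    Tv 1 m f x ≤ C * (EE 0 f + EE j f) := by
  obtain ⟨C₁, p₁, h₁⟩ := Tv_le_nT m
  obtain ⟨C₂, p₂, h₂⟩ := nT_equiv j 2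
  obtain ⟨C₃, p₃, h₃⟩ := tp_le_EE j 2
  obtain ⟨C₄, p₄, h₄⟩ := tp_le_EE 0 2
  refine ⟨C₁ * (C₂ * (C₃ + C₄)), by positivity, fun f x => (h₁ f x).trans ?_⟩
  rw [mul_assoc]
  refine mul_le_mul_of_nonneg_left ((nT_mono one_pos h _ _).trans
    ((h₂ 1 one_pos le_rfl f).trans ?_)) p₁
  rw [mul_assoc]
  refine mul_le_mul_of_nonneg_left ?_ p₂
  have := h₃ f
  have := h₄ f
  have := mul_nonneg p₃ (EE_nonneg 0 f)
  have := mul_nonneg p₄ (EE_nonneg j f)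
  nlinarith

lemma Tv_interp (m j : ℕ) (h : m + 16 ≤ j) (δ : ℝ) (hδ : 0 < δ) : ∃ C, 0 ≤ C ∧
    ∀ (f : SF) (x : I01), Tv 1 m f x ≤ δ * EE j f + C * EE 0 f := by
  obtain ⟨j, rfl⟩ : ∃ k, j = k + 1 := ⟨j - 1, by omega⟩
  obtain ⟨C₁, p₁, h₁⟩ := Tv_le_nT m
  obtain ⟨C₃, p₃, h₃⟩ := tp_le_EE (j + 1) 2
  obtain ⟨C₄, p₄, h₄⟩ := tp_le_EE 0 2
  obtain ⟨C₂, p₂, h₂⟩ := nT_interp j 2 (δ / (C₁ * C₃ + 1)) (by positivity)
  refine ⟨C₁ * (C₂ * C₄), by positivity, fun f x => (h₁ f x).trans ?_⟩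
  have a1 := (nT_mono one_pos (show m + 15 ≤ j by omega) 2 f).trans (h₂ 1 one_pos le_rfl f)
  have a2 := mul_le_mul_of_nonneg_left (h₃ f) (show 0 ≤ δ / (C₁ * C₃ + 1) by positivity)
  have a3 := mul_le_mul_of_nonneg_left (h₄ f) p₂
  have a4 := mul_le_mul_of_nonneg_left (a1.trans (add_le_add a2 a3)) p₁
  have a5 : C₁ * C₃ * (δ / (C₁ * C₃ + 1)) ≤ δ := by
    rw [← mul_div_assoc, div_le_iff₀ (by positivity)]; nlinarith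
  have a6 := mul_le_mul_of_nonneg_right a5 (EE_nonneg (j + 1) f)
  nlinarith

lemma jet_le_Tv (i : ℕ) {f : SF} {K : ℝ} (hK : 0 ≤ K) (h : ∀ x, Tv 1 (2 * i) f x ≤ K ^ 2) :
    ‖((Dn i f : SF) : CC)‖ ≤ K := by
  refine (ContinuousMap.norm_le _ hK).2 fun x => ?_
  have h1 := s_le_Tv one_pos (le_refl (2 * i)) f x
  have h2 : 1 ≤ ((x : ℝ) + 1) ^ (2 * i) := one_le_pow₀ (by linarith [x.2.1])
  have h3 := mul_le_mul_of_nonneg_right h2 (sq_nonneg (ev x (Dn i f)))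
  exact abs_le_of_sq_le_sq' (by rw [← ev_def]; linarith [h x]) hK |> abs_le.2

lemma Tv_le_jets (m : ℕ) : ∃ C, 0 ≤ C ∧ ∀ (f : SF) (ε : ℝ),
    (∀ i ≤ m, ‖((Dn i f : SF) : CC)‖ ≤ ε) → ∀ x, Tv 1 m f x ≤ C * ε ^ 2 := by
  refine ⟨∑ i ∈ Finset.range (m + 1), 2 ^ (2 * i), by positivity, fun f ε h x => ?_⟩
  refine (Tv_le_s one_pos m f x).trans ?_
  rw [Finset.sum_mul]
  refine Finset.sum_le_sum fun i hi => ?_
  have hi' : i ≤ m := Nat.lt_succ_iff.1 (Finset.mem_range.1 hi)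
  refine mul_le_mul (pow_le_pow_left₀ (ell_pos one_pos x).le (ell_le le_rfl x) _) ?_ (sq_nonneg _)
    (by positivity)
  rw [← sq_abs]
  exact pow_le_pow_left₀ (abs_nonneg _) ((abs_ev_le x _).trans (h i hi')) 2

lemma JC_bd {G : ℝ → SF} {s T : ℝ} (hG : JC G (Icc s T)) (m : ℕ) :
    ∃ K, 0 ≤ K ∧ ∀ t ∈ Icc s T, ∀ x, Tv 1 m (G t) x ≤ K := by
  have h : ∀ i, ∃ B, ∀ t ∈ Icc s T, ‖((Dn i (G t) : SF) : CC)‖ ≤ B := fun i =>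
    isCompact_Icc.exists_bound_of_continuousOn (hG i)
  choose B hB using h
  obtain ⟨C, p, hC⟩ := Tv_le_jets m
  refine ⟨C * (∑ i ∈ Finset.range (m + 1), |B i|) ^ 2, by positivity, fun t ht => hC _ _ fun i hi => ?_⟩
  exact ((hB i t ht).trans (le_abs_self _)).trans (Finset.single_le_sum
    (f := fun i => |B i|) (fun _ _ => abs_nonneg _) (Finset.mem_range.2 (Nat.lt_succ_of_le hi)))

lemma Cf_bd {cf : ℝ → Cf} {s T : ℝ} (h : CfJC cf (Icc s T)) (m : ℕ) :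
    ∃ K, 0 ≤ K ∧ ∀ t ∈ Icc s T, (cf t).Bd 1 m K := by
  obtain ⟨K₁, p₁, h₁⟩ := JC_bd h.1 m
  obtain ⟨K₂, p₂, h₂⟩ := JC_bd h.2.1 m
  obtain ⟨K₃, p₃, h₃⟩ := JC_bd h.2.2.1 m
  obtain ⟨K₄, p₄, h₄⟩ := JC_bd h.2.2.2 m
  refine ⟨K₁ + 16 * K₂ + 4 * K₃ + K₄, by positivity, fun t ht x => ?_⟩
  have a0 := (ell_pos one_pos x).le
  have a1 : ((x : ℝ) + 1) ^ 4 ≤ 2 ^ 4 := pow_le_pow_left₀ a0 (ell_le le_rfl x) _
  have a2 : ((x : ℝ) + 1) ^ 2 ≤ 2 ^ 2 := pow_le_pow_left₀ a0 (ell_le le_rfl x) _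
  have b1 := mul_le_mul a1 (h₂ t ht x) (Tv_nonneg one_pos _ _ _) (by positivity)
  have b2 := mul_le_mul a2 (h₃ t ht x) (Tv_nonneg one_pos _ _ _) (by positivity)
  exact ⟨by linarith [h₁ t ht x], by linarith, by linarith, by linarith [h₄ t ht x]⟩

lemma cf_mono {cf : ℝ → Cf} {s s' : Set ℝ} (h : CfJC cf s) (hs : s' ⊆ s) : CfJC cf s' :=
  ⟨h.1.mono hs, h.2.1.mono hs, h.2.2.1.mono hs, h.2.2.2.mono hs⟩

lemma hasDeriv_EE {G : ℝ → SF} {U : SF} {s : Set ℝ} {t : ℝ} (hG : JD G U s t) (j : ℕ) :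
    HasDerivWithinAt (fun τ => EE j (G τ)) (2 * PE j U (G t)) s t := by
  have := hasDeriv_tp hG (lam := fun _ => 1) (hasDerivWithinAt_const t s 1) one_pos j ((j : ℝ) - 10)
  rw [zero_mul, zero_mul, add_zero] at this
  exact this

end Crest.Agent.R213.Lx
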