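import Crest.Agent.R213.LE.Base

/-! Row 213, block LE (owner helper24): polynomials of degree `< N` and the orthogonal projection. -/

set_option autoImplicit false
open Set Filter Topology

noncomputable section
namespace Crest.Agent.R213.Lx

/-- polynomials of degree `< N` -/
def VP (N : ℕ) : Submodule ℝ SF := Submodule.span ℝ (Set.range fun k : Fin N => X ^ (k : ℕ))

instance VP_fin (N : ℕ) : Module.Finite ℝ (VP N) :=
  Module.Finite.span_of_finite ℝ (Set.finite_range _)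
instance VP_free (N : ℕ) : Module.Free ℝ (VP N) := Module.Free.of_divisionRing ℝ (VP N)

/-- coordinates on `VP N` -/
abbrev EV (N : ℕ) : Type := Fin (Module.finrank ℝ (VP N)) → ℝ
def crd (N : ℕ) : VP N ≃ₗ[ℝ] EV N := (Module.finBasis ℝ (VP N)).equivFun
def emb (N : ℕ) : EV N →ₗ[ℝ] SF := (VP N).subtype ∘ₗ (crd N).symm.toLinearMap
lemma emb_inj (N : ℕ) : Function.Injective (emb N) :=
  (VP N).injective_subtype.comp (crd N).symm.injective
lemma emb_mem (N : ℕ) (c : EV N) : emb N c ∈ VP N := ((crd N).symm c).2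
lemma exists_emb {N : ℕ} {p : SF} (h : p ∈ VP N) : ∃ c, emb N c = p :=
  ⟨crd N ⟨p, h⟩, by simp [emb]⟩

lemma X_pow_mem {N k : ℕ} (h : k < N) : X ^ k ∈ VP N := Submodule.subset_span ⟨⟨k, h⟩, rfl⟩

lemma VP_mono {N M : ℕ} (h : N ≤ M) : VP N ≤ VP M :=
  Submodule.span_le.2 (by rintro _ ⟨k, rfl⟩; exact X_pow_mem (k.2.trans_le h))

lemma map_mem {N M : ℕ} (L : SF →ₗ[ℝ] SF) (h : ∀ k < N, L (X ^ k) ∈ VP M) {p : SF}
    (hp : p ∈ VP N) : L p ∈ VP M := by
  have : VP N ≤ (VP M).comap L := Submodule.span_le.2 (by rintro _ ⟨k, rfl⟩; exact h k k.2)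
  exact this hp

lemma D_X_pow (k : ℕ) : D (X ^ k) = (k : ℝ) • X ^ (k - 1) := by
  rw [Derivation.leibniz_pow, D_X, smul_eq_mul, mul_one, Nat.cast_smul_eq_nsmul]

lemma X_mul_mem {N : ℕ} {p : SF} (h : p ∈ VP N) : X * p ∈ VP (N + 1) :=
  map_mem (LinearMap.mulLeft ℝ X) (fun k hk => by
    rw [LinearMap.mulLeft_apply, ← pow_succ']; exact X_pow_mem (by omega)) h

/-- `Submodule.span_induction`, `Derivation.leibniz_pow` -/
lemma D_mem {N : ℕ} {p : SF} (h : p ∈ VP N) : D p ∈ VP (N - 1) := by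
  refine map_mem (D : SF →ₗ[ℝ] SF) (fun k hk => ?_) h
  change D (X ^ k) ∈ _
  rw [D_X_pow]
  rcases Nat.eq_zero_or_pos k with rfl | h0
  · rw [Nat.cast_zero, zero_smul]; exact zero_mem _
  · exact Submodule.smul_mem _ _ (X_pow_mem (by omega))

/-- `δ_i X^k = k (X^k - X^(k+1)) + (10+i) (X^k - X^(k+1)) - (i+1) X^(k+1)` -/
lemma dl_mem (i : ℕ) {N : ℕ} {p : SF} (h : p ∈ VP N) : dl i p ∈ VP (N + 1) := by
  refine map_mem (dl i) (fun k hk => ?_) h
  have e : dl i (X ^ k) = ((k : ℝ) + (10 + i : ℕ)) • (X ^ k - X ^ (k + 1)) -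
      ((i + 1 : ℕ) : ℝ) • X ^ (k + 1) := by
    have e1 : q * ((k : ℝ) • X ^ (k - 1)) = (k : ℝ) • (X ^ k - X ^ (k + 1)) := by
      rcases k with _ | k
      · simp
      · rw [mul_smul_comm, q, Nat.add_sub_cancel]; congr 1; ring
    rw [dl_apply, D_X_pow, e1, pp, sub_mul, smul_mul_assoc, smul_mul_assoc, add_smul, sub_mul,
      one_mul, ← pow_succ', add_sub_assoc]
  rw [e]
  exact sub_mem (Submodule.smul_mem _ _ (sub_mem (X_pow_mem (by omega)) (X_pow_mem (by omega))))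
    (Submodule.smul_mem _ _ (X_pow_mem (by omega)))

/-- Induction on `j` for: `∀ p ∈ VP (N - j), ig (Dn j r * p * mu (j+2)) = 0` (`ig_mu_dl (j+2)`, `dl_mem`;
`VP 0 = ⊥`), and `Dn j p ∈ VP (N - j)` (`D_mem`). -/
lemma orth_all {N : ℕ} {r : SF} (h : ∀ p ∈ VP N, PE 0 r p = 0) (j : ℕ) :
    ∀ p ∈ VP N, PE j r p = 0 := by
  have h1 : ∀ j, ∀ p ∈ VP (N - j), ig (Dn j r * p * mu (j + 2)) = 0 := by
    intro j
    induction j with
    | zero => intro p hp; exact (PE_apply 0 r p).symm.trans (h p hp)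
    | succ j ih =>
      intro p hp
      rcases le_or_gt N j with hN | hN
      · rw [show N - (j + 1) = 0 by omega] at hp
        have : p = 0 := by simpa [VP] using hp
        rw [this, mul_zero, zero_mul, map_zero]
      · have a1 := ih _ (VP_mono (by omega) (dl_mem (j + 2) hp))
        have a2 := ig_mu_dl (j + 2) p (Dn j r)
        rw [show mu (j + 2) * dl (j + 2) p * Dn j r = Dn j r * dl (j + 2) p * mu (j + 2) by ring,
          a1, eq_comm, neg_eq_zero] at a2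
        rw [Dn_succ, ← a2]
        congr 1
        ring
  have h2 : ∀ j, ∀ p ∈ VP N, Dn j p ∈ VP (N - j) := by
    intro j p hp
    induction j with
    | zero => exact hp
    | succ j ih => rw [Dn_succ]; exact D_mem ih
  intro p hp
  rw [PE_apply]
  exact h1 j _ (h2 j p hp)

lemma exists_Pr (N : ℕ) :
    ∃ P : SF →ₗ[ℝ] EV N, ∀ f, ∀ p ∈ VP N, PE 0 (emb N (P f)) p = PE 0 f p := by
  let B : EV N →ₗ[ℝ] Module.Dual ℝ (EV N) := (PE 0).compl₁₂ (emb N) (emb N)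
  have hB : Function.Injective B := by
    rw [injective_iff_map_eq_zero]
    intro c hc
    have h1 : EE 0 (emb N c) = 0 := LinearMap.congr_fun hc c
    exact emb_inj N ((eq_zero_of_EE h1).trans (map_zero _).symm)
  let e := B.linearEquivOfInjective hB (Subspace.dual_finrank_eq).symm
  refine ⟨e.symm.toLinearMap ∘ₗ (PE 0).compl₂ (emb N), fun f p hp => ?_⟩
  obtain ⟨c, rfl⟩ := exists_emb hp
  exact LinearMap.congr_fun (e.apply_symm_apply ((PE 0).compl₂ (emb N) f)) c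

/-- the orthogonal projection, in coordinates -/
def Pr0 (N : ℕ) : SF →ₗ[ℝ] EV N := (exists_Pr N).choose
/-- the orthogonal projection -/
def Pr (N : ℕ) : SF →ₗ[ℝ] SF := emb N ∘ₗ Pr0 N

lemma Pr_eq (N : ℕ) (f : SF) : Pr N f = emb N (Pr0 N f) := rfl
lemma Pr_mem (N : ℕ) (f : SF) : Pr N f ∈ VP N := emb_mem _ _

lemma PE_Pr (j N : ℕ) (f : SF) {p : SF} (hp : p ∈ VP N) : PE j (Pr N f) p = PE j f p := by
  have := orth_all (N := N) (r := Pr N f - f) (fun p hp => by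
    rw [map_sub, LinearMap.sub_apply, sub_eq_zero]
    exact (exists_Pr N).choose_spec f p hp) j p hp
  rwa [map_sub, LinearMap.sub_apply, sub_eq_zero] at this

lemma EE_pyth (j N : ℕ) (f : SF) {p : SF} (hp : p ∈ VP N) :
    EE j (f - p) = EE j (f - Pr N f) + EE j (Pr N f - p) := by
  have h1 := PE_Pr j N f hp
  have h2 := PE_Pr j N f (Pr_mem N f)
  rw [EE_expand, EE_expand, EE_expand, h1, ← h2, ← EE_eq]
  ring

lemma EE_Pr_le (j N : ℕ) (f : SF) : EE j (Pr N f) ≤ EE j f := by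
  have := EE_pyth j N f (VP N).zero_mem
  rw [sub_zero, sub_zero] at this
  linarith [EE_nonneg j (f - Pr N f)]

lemma EE_sub_Pr_le (j N : ℕ) (f : SF) {p : SF} (hp : p ∈ VP N) :
    EE j (f - Pr N f) ≤ EE j (f - p) := by
  linarith [EE_pyth j N f hp, EE_nonneg j (Pr N f - p)]

lemma polyb_mem (k m : ℕ) : X ^ k * (1 - X) ^ m ∈ VP (k + m + 1) := by
  induction m with
  | zero => rw [pow_zero, mul_one]; exact X_pow_mem (by omega)
  | succ m ih =>
    rw [show X ^ k * (1 - X) ^ (m + 1) = X ^ k * (1 - X) ^ m - X * (X ^ k * (1 - X) ^ m) by ring]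
    exact sub_mem (VP_mono (by omega) ih) (X_mul_mem ih)

lemma polyb_lip (f : SF) {L : ℝ} (hL : ‖((D f : SF) : CC)‖ ≤ L) (a b : I01) :
    (ev b f - ev a f) ^ 2 ≤ L ^ 2 * ((b : ℝ) - a) ^ 2 := by
  have h := intervalIntegral.norm_integral_le_of_norm_le_const (a := (a : ℝ)) (b := b) (C := L)
    (f := ext ((D f : SF) : CC)) fun y _ => (ContinuousMap.norm_coe_le_norm _ _).trans hL
  rw [integral_D, Real.norm_eq_abs] at h
  rw [← sq_abs, ← sq_abs ((b : ℝ) - a), ← mul_pow]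
  exact pow_le_pow_left₀ (abs_nonneg _) h 2

/-- Bernstein polynomial `p = ∑_{k ≤ N} f(k/N) • C(N,k) X^k (1-X)^(N-k)` (membership: `X * VP n ⊆ VP (n+1)`,
`VP` monotone); with `b_k(x) = bernstein N k x ≥ 0`, `bernstein.probability`, `bernstein.variance`:
`(f x - p x)² ≤ ∑ b_k (f x - f (k/N))² ≤ L² ∑ b_k (x - k/N)² = L² x (1-x)/N` (Cauchy-Schwarz or
`∑ b_k (a_k - ā)² ≥ 0`); `|f x - f y| ≤ L |x - y|` from `integral_D`. -/
lemma exists_approx (N : ℕ) (hN : 0 < N) (f : SF) {L : ℝ} (hL : ‖((D f : SF) : CC)‖ ≤ L) :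
    ∃ p ∈ VP (N + 1), ∀ x, ev x (f - p) ^ 2 ≤ L ^ 2 / N := by
  refine ⟨∑ k : Fin (N + 1), (ev (bernstein.z k) f * (N.choose k : ℝ)) •
    (X ^ (k : ℕ) * (1 - X) ^ (N - k)), Submodule.sum_mem _ fun k _ => Submodule.smul_mem _ _
      (VP_mono (by have := k.2; omega) (polyb_mem k (N - k))), fun x => ?_⟩
  have e : ev x (f - ∑ k : Fin (N + 1), (ev (bernstein.z k) f * (N.choose k : ℝ)) •
      (X ^ (k : ℕ) * (1 - X) ^ (N - k))) =
      ∑ k : Fin (N + 1), bernstein N k x * (ev x f - ev (bernstein.z k) f) := by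
    simp only [mul_sub, Finset.sum_sub_distrib, ← Finset.sum_mul, bernstein.probability, one_mul]
    rw [map_sub, map_sum]
    congr 1
    refine Finset.sum_congr rfl fun k _ => ?_
    rw [ev_smul, bernstein_apply, map_mul, map_pow, map_pow, map_sub, map_one, ev_X]
    ring
  have h1 := Finset.sum_sq_le_sum_mul_sum_of_sq_le_mul (Finset.univ : Finset (Fin (N + 1)))
    (r := fun k => bernstein N k x * (ev x f - ev (bernstein.z k) f)) (f := fun k => bernstein N k x)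
    (g := fun k => L ^ 2 * ((x - bernstein.z k : ℝ) ^ 2 * bernstein N k x))
    (fun _ _ => bernstein_nonneg)
    (fun _ _ => mul_nonneg (sq_nonneg _) (mul_nonneg (sq_nonneg _) bernstein_nonneg)) fun k _ => by
      have := mul_le_mul_of_nonneg_left (polyb_lip f hL (bernstein.z k) x) (sq_nonneg (bernstein N k x))
      nlinarith
  rw [bernstein.probability, one_mul, ← Finset.mul_sum, bernstein.variance hN.ne'] at h1
  rw [e]
  refine h1.trans ?_
  rw [← mul_div_assoc]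
  refine div_le_div_of_nonneg_right (mul_le_of_le_one_right (sq_nonneg _) ?_) (Nat.cast_nonneg _)
  nlinarith [sq_nonneg ((x : ℝ) - 1 / 2)]

lemma jackson (N : ℕ) (hN : 0 < N) (f : SF) {K : ℝ} (h : ∀ x, Tv 1 2 f x ≤ K) :
    EE 0 (f - Pr (N + 1) f) ≤ K / N := by
  have hK : 0 ≤ K := (Tv_nonneg one_pos _ _ _).trans (h 0)
  have h1 := jet_le_Tv 1 (f := f) (Real.sqrt_nonneg K) (fun x => by rw [Real.sq_sqrt hK]; exact h x)
  rw [Dn_one] at h1
  obtain ⟨p, hp, h2⟩ := exists_approx N hN f h1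
  rw [Real.sq_sqrt hK] at h2
  exact (EE_sub_Pr_le 0 _ f hp).trans (EE_zero_le h2)

/-- the jets as continuous linear maps -/
def jetL (N i : ℕ) : EV N →L[ℝ] CC :=
  (SF.val.toLinearMap ∘ₗ Dn i ∘ₗ emb N : EV N →ₗ[ℝ] CC).toContinuousLinearMap

lemma jetL_apply (N i : ℕ) (c : EV N) : jetL N i c = ((Dn i (emb N c) : SF) : CC) := rfl

lemma norm_le_emb (N : ℕ) : ∃ C, 0 ≤ C ∧ ∀ c : EV N, ‖c‖ ≤ C * ‖((emb N c : SF) : CC)‖ := by
  obtain ⟨K, -, hK⟩ := (jetL N 0).toLinearMap.exists_antilipschitzWith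
    (LinearMap.ker_eq_bot.2 fun a b h => emb_inj N (Subtype.ext h))
  refine ⟨K, K.2, fun c => ?_⟩
  have := hK.le_mul_dist c 0
  rw [map_zero, dist_zero_right, dist_zero_right] at this
  exact this

lemma Tv_le_norm (N m : ℕ) :
    ∃ C, 0 ≤ C ∧ ∀ (c : EV N) (x : I01), Tv 1 m (emb N c) x ≤ C * ‖c‖ ^ 2 := by
  obtain ⟨C, p, h⟩ := Tv_le_jets m
  refine ⟨C * (∑ i ∈ Finset.range (m + 1), ‖jetL N i‖) ^ 2, by positivity, fun c x => ?_⟩
  rw [mul_assoc, ← mul_pow]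
  refine h _ _ (fun i hi => ((jetL N i).le_opNorm c).trans ?_) x
  exact mul_le_mul_of_nonneg_right (Finset.single_le_sum (f := fun i => ‖jetL N i‖)
    (fun i _ => (jetL N i).opNorm_nonneg) (Finset.mem_range.2 (Nat.lt_succ_of_le hi)))
    (norm_nonneg _)

lemma norm_sq_le_EE (N : ℕ) : ∃ C, 0 ≤ C ∧ ∀ c : EV N, ‖c‖ ^ 2 ≤ C * EE 0 (emb N c) := by
  obtain ⟨C₁, p₁, h₁⟩ := norm_le_emb N
  obtain ⟨C₂, p₂, h₂⟩ := Tv_le_norm N 16
  obtain ⟨C₃, p₃, h₃⟩ := EE_le_Tv 16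
  set δ := 1 / (2 * (C₁ ^ 2 * (C₃ * C₂)) + 1) with hδ
  have hδ0 : 0 < δ := by positivity
  obtain ⟨C₄, p₄, h₄⟩ := Tv_interp 0 16 le_rfl δ hδ0
  refine ⟨2 * (C₁ ^ 2 * C₄), by positivity, fun c => ?_⟩
  have e0 := EE_nonneg 0 (emb N c)
  have e1 := EE_nonneg 16 (emb N c)
  have a0 : 0 ≤ δ * EE 16 (emb N c) + C₄ * EE 0 (emb N c) := by positivity
  have a1 := jet_le_Tv 0 (f := emb N c) (Real.sqrt_nonneg _)
    (fun x => by rw [Real.sq_sqrt a0]; exact h₄ _ x)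
  have a2 : ‖c‖ ≤ C₁ * √(δ * EE 16 (emb N c) + C₄ * EE 0 (emb N c)) :=
    (h₁ c).trans (mul_le_mul_of_nonneg_left a1 p₁)
  have a3 := pow_le_pow_left₀ (norm_nonneg _) a2 2
  rw [mul_pow, Real.sq_sqrt a0] at a3
  have a4 := mul_le_mul_of_nonneg_left (h₃ _ _ (h₂ c)) (show 0 ≤ C₁ ^ 2 * δ by positivity)
  have a5 : C₁ ^ 2 * (C₃ * C₂) * δ ≤ 1 / 2 := by
    rw [hδ, mul_one_div, div_le_iff₀ (by positivity)]; linarith
  have a6 := mul_le_mul_of_nonneg_right a5 (sq_nonneg ‖c‖)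
  nlinarith

lemma norm_Pr0_le (N : ℕ) : ∃ C, 0 ≤ C ∧ ∀ (f : SF) (K : ℝ), 0 ≤ K → (∀ x, ev x f ^ 2 ≤ K ^ 2) →
    ‖Pr0 N f‖ ≤ C * K := by
  obtain ⟨C, p, h⟩ := norm_sq_le_EE N
  refine ⟨√C, Real.sqrt_nonneg _, fun f K hK hf => ?_⟩
  refine abs_le_of_sq_le_sq' ?_ (by positivity) |>.2
  rw [mul_pow, Real.sq_sqrt p]
  exact (h _).trans (mul_le_mul_of_nonneg_left ((EE_Pr_le 0 N f).trans (EE_zero_le hf)) p)

end Crest.Agent.R213.Lx
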