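import Crest.Agent.R213.LE.Base

/-! Row 213, block LE (owner helper24): bounds for `rhs` with `l = 1` (so `1 ≤ x + 1 ≤ 2`). -/

set_option autoImplicit false
open Set Filter Topology

noncomputable section
namespace Crest.Agent.R213.Lx

lemma rhsa_le {x : I01} (k : ℕ) {y : ℝ} (hy : 0 ≤ y) : y ≤ ((x : ℝ) + 1) ^ k * y :=
  le_mul_of_one_le_left hy (one_le_pow₀ (by linarith [x.2.1]))

lemma rhsa_sig {σ : ℝ} (hσ : σ = 0 ∨ σ = 1) {m : ℕ} {G : SF} {K : ℝ} {x : I01} (h : Tv 1 m G x ≤ K) :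
    σ * (((x : ℝ) + 1) ^ 2 * Tv 1 m G x) ≤ 4 * |K| := by
  rcases hσ with rfl | rfl
  · rw [zero_mul]; positivity
  · have a2 : ((x : ℝ) + 1) ^ 2 ≤ 2 ^ 2 :=
      pow_le_pow_left₀ (ell_pos one_pos x).le (ell_le le_rfl x) _
    have := mul_le_mul a2 (h.trans (le_abs_self K)) (Tv_nonneg one_pos _ _ _) (by positivity)
    linarith

/-- `Tv_add`, `Tv_neg`, `Tv_smul`, `Tv_mul`, `Tv_beta m m` (or `Tv_sub`, `Tv_mul`, `Tv_fixed m q`), `Tv_Bop`,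
`Tv_mono`. -/
lemma rhs_bd (m : ℕ) (K : ℝ) : ∃ C, 0 ≤ C ∧ ∀ σ : ℝ, (σ = 0 ∨ σ = 1) → ∀ (cf : Cf) (G : SF) (x : I01),
    cf.Bd 1 m K → Tv 1 (m + 4) G x ≤ K → Tv 1 m (rhs σ cf G) x ≤ C := by
  obtain ⟨C₁, p₁, h₁⟩ := Tv_beta m m (by omega) (4 * |K|)
  obtain ⟨C₂, p₂, h₂⟩ := Tv_mul m
  obtain ⟨C₃, p₃, h₃⟩ := Tv_Bop m
  obtain ⟨C₄, p₄, h₄⟩ := enb_src m m (by omega) (4 * |K|) (by positivity)
  refine ⟨4 * (C₂ * (C₁ * (1 + 4 * |K|) * (C₃ * |K|))) + 4 * (C₄ * |K|) + 2 * |K|, by positivity,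
    fun σ hσ cf G x hb hG => ?_⟩
  have hK : K ≤ 4 * |K| := by linarith [le_abs_self K, abs_nonneg K]
  have hG4 := hG.trans (le_abs_self K)
  have hGm : Tv 1 m G x ≤ K := (Tv_mono one_pos (Nat.le_add_right m 4) G x).trans hG
  have hs := rhsa_sig hσ hGm
  have a1 := (h₁ 1 one_pos le_rfl σ hσ cf.a G x ((hb x).1.trans hK) hs).trans
    (mul_le_mul_of_nonneg_left (add_le_add_right hs 1) p₁)
  have a3 := ((rhsa_le 4 (Tv_nonneg one_pos _ _ x)).trans (h₃ 1 one_pos le_rfl G x)).trans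
    (mul_le_mul_of_nonneg_left hG4 p₃)
  have a2 := (h₂ 1 one_pos le_rfl _ _ x).trans (mul_le_mul_of_nonneg_left
    (mul_le_mul a1 a3 (Tv_nonneg one_pos _ _ x) (by positivity)) p₂)
  have a4 := ((rhsa_le 4 (Tv_nonneg one_pos _ _ x)).trans (h₄ 1 one_pos le_rfl σ hσ cf.e1 cf.e2 G x
    ((hb x).2.1.trans hK) ((hb x).2.2.1.trans hK) hs)).trans
    (mul_le_mul_of_nonneg_left (hGm.trans (le_abs_self K)) p₄)
  have a5 : Tv 1 m (σ • cf.e0) x ≤ |K| := by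
    rw [Tv_smul]
    rcases hσ with rfl | rfl
    · simp
    · simpa using (hb x).2.2.2.trans (le_abs_self K)
  have e : rhs σ cf G = (-((cf.a - σ • (q * G)) ^ 2 * Bop G) + (cf.e1 * G + σ • (cf.e2 * G ^ 2))) +
      σ • cf.e0 := by
    simp only [rhs, smul_add]
    abel
  have b1 := Tv_add one_pos m (-((cf.a - σ • (q * G)) ^ 2 * Bop G) +
    (cf.e1 * G + σ • (cf.e2 * G ^ 2))) (σ • cf.e0) x
  have b2 := Tv_add one_pos m (-((cf.a - σ • (q * G)) ^ 2 * Bop G))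
    (cf.e1 * G + σ • (cf.e2 * G ^ 2)) x
  rw [Tv_neg] at b2
  rw [e]
  linarith

/-- pointwise: `rhs G₁ - rhs G₂ = -β₁ 𝓑ζ + e ζ`, `ζ = G₁ - G₂`, `β₁ = (a - σ q G₁)²`,
`e = e1 + σ e2 (G₁ + G₂) + σ q (2a - σ q G₁ - σ q G₂) 𝓑G₂`; `sq_le_Tv`, `Tv_Bop 0`, `Tv_zero`. -/
lemma rhs_lip (K : ℝ) : ∃ C, 0 ≤ C ∧ ∀ σ : ℝ, (σ = 0 ∨ σ = 1) → ∀ (cf : Cf) (G₁ G₂ : SF) (x : I01),
    cf.Bd 1 4 K → Tv 1 4 G₁ x ≤ K → Tv 1 4 G₂ x ≤ K →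
    ev x (rhs σ cf G₁ - rhs σ cf G₂) ^ 2 ≤ C * Tv 1 4 (G₁ - G₂) x := by
  obtain ⟨CB, hCB, hBop⟩ := Tv_Bop 0
  obtain ⟨C₁, p₁, h₁⟩ := Tv_beta 4 4 (by omega) (4 * |K|)
  set K' := 4 * |K| with hK'
  have hK0 : 0 ≤ K' := by positivity
  refine ⟨2 * (C₁ * (1 + K') * CB) + 2 * (3 * K' + 12 * K' ^ 2 + 54 * (K' * (CB * K'))),
    by positivity, fun σ hσ cf G₁ G₂ x hB hG₁ hG₂ => ?_⟩
  have hK : K ≤ K' := by linarith [le_abs_self K, abs_nonneg K]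
  have hσ0 : 0 ≤ σ := by rcases hσ with rfl | rfl <;> norm_num
  have h0 : (0 : ℝ) < 1 := one_pos
  have s1 := rhsa_sig hσ hG₁
  have s2 := rhsa_sig hσ hG₂
  set E := cf.e1 + σ • (cf.e2 * (G₁ + G₂)) +
    σ • (q * ((2 : ℝ) • cf.a - σ • (q * G₁) - σ • (q * G₂)) * Bop G₂) with hE
  have e : rhs σ cf G₁ - rhs σ cf G₂ = -((cf.a - σ • (q * G₁)) ^ 2 * Bop (G₁ - G₂)) +
      E * (G₁ - G₂) := by
    simp only [hE, rhs, map_sub, Algebra.smul_def, map_ofNat]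
    ring
  have hE2 : ((x : ℝ) + 1) ^ 4 * ev x E ^ 2 ≤ 3 * K' + 12 * K' ^ 2 + 54 * (K' * (CB * K')) := by
    have hb := hBop 1 h0 le_rfl G₂ x
    rw [Tv_zero] at hb
    have hb2 : σ * (((x : ℝ) + 1) ^ 2 * (((x : ℝ) + 1) ^ 4 * ev x (Bop G₂) ^ 2)) ≤ CB * K' :=
      calc _ ≤ σ * (((x : ℝ) + 1) ^ 2 * (CB * Tv 1 (0 + 4) G₂ x)) :=
          mul_le_mul_of_nonneg_left (mul_le_mul_of_nonneg_left hb (sq_nonneg _)) hσ0
        _ = CB * (σ * (((x : ℝ) + 1) ^ 2 * Tv 1 4 G₂ x)) := by ring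
        _ ≤ _ := mul_le_mul_of_nonneg_left s2 hCB
    have := enc_pt hσ (q_nonneg x) (q_le_ell h0 x) (mul_nonneg hCB hK0)
      ((sq_le_Tv h0 _ _ x).trans ((hB x).1.trans hK))
      (by simpa using enc_sq h0 zero_le_one ((one_mul _).trans_le ((hB x).2.1.trans hK)))
      (by simpa using enc_sq h0 zero_le_one ((one_mul _).trans_le ((hB x).2.2.1.trans hK)))
      (enc_sq h0 hσ0 s1) (enc_sq h0 hσ0 s2) hb2
    simpa only [hE, map_add, map_sub, map_mul, ev_smul, ev_q] using this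
  have a1 := (rhsa_le 4 (sq_nonneg _)).trans hE2
  have a2 := (sq_le_Tv h0 4 _ x).trans ((h₁ 1 one_pos le_rfl σ hσ cf.a G₁ x ((hB x).1.trans hK) s1).trans
    (mul_le_mul_of_nonneg_left (add_le_add_right s1 1) p₁))
  have a3 := hBop 1 h0 le_rfl (G₁ - G₂) x
  rw [Tv_zero] at a3
  have a4 := (rhsa_le 4 (sq_nonneg _)).trans a3
  have a5 := sq_le_Tv h0 4 (G₁ - G₂) x
  have b1 := mul_le_mul a2 a4 (sq_nonneg _) (by positivity)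
  have b2 := mul_le_mul a1 a5 (sq_nonneg _) (by positivity)
  rw [e, map_add, map_neg, map_mul, map_mul]
  rw [← mul_pow] at b1 b2
  nlinarith [sq_nonneg (ev x ((cf.a - σ • (q * G₁)) ^ 2) * ev x (Bop (G₁ - G₂)) +
    ev x E * ev x (G₁ - G₂))]

lemma bd_le {c : Cf} {m : ℕ} {K K' : ℝ} (h : c.Bd 1 m K) (hK : K ≤ K') : c.Bd 1 m K' := fun x =>
  ⟨(h x).1.trans hK, (h x).2.1.trans hK, (h x).2.2.1.trans hK, (h x).2.2.2.trans hK⟩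

lemma sig_le {σ : ℝ} (hσ : σ = 0 ∨ σ = 1) {m : ℕ} {G : SF} {K : ℝ} (h : ∀ x, Tv 1 m G x ≤ K)
    (x : I01) : σ * (((x : ℝ) + 1) ^ 2 * Tv 1 m G x) ≤ 4 * |K| := by
  rcases hσ with rfl | rfl
  · rw [zero_mul]; positivity
  · have a2 : ((x : ℝ) + 1) ^ 2 ≤ 2 ^ 2 :=
      pow_le_pow_left₀ (ell_pos one_pos x).le (ell_le le_rfl x) _
    have := mul_le_mul a2 ((h x).trans (le_abs_self K)) (Tv_nonneg one_pos _ _ _) (by positivity)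
    linarith

lemma le_four (K : ℝ) : K ≤ 4 * |K| := by linarith [le_abs_self K, abs_nonneg K]

lemma tp_zero_fun (j : ℕ) (b : ℝ) : tp 1 j b 0 = 0 := by simp [tp]

/-- `en_low (-10) c0 (4 K)` with source `0`; `tp 1 0 b ≤ nT 1 4 b` (`tp_le_nT`), `nT_one_le`. -/
lemma en_lev0 (c0 K : ℝ) (hc : 0 < c0) : ∃ C, 0 ≤ C ∧ ∀ σ : ℝ, (σ = 0 ∨ σ = 1) →
    ∀ (cf : Cf) (G : SF), cf.Bd 1 4 K → (∀ x, c0 ≤ ev x (cf.a - σ • (q * G))) →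
    (∀ x, Tv 1 4 G x ≤ K) → 2 * PE 0 (rhs σ cf G) G ≤ C := by
  obtain ⟨C, p, h⟩ := en_low (-10) c0 (4 * |K|) hc
  obtain ⟨C₁, p₁, h₁⟩ := nT_one_le 4 (-10 + 2)
  obtain ⟨C₂, p₂, h₂⟩ := nT_one_le 4 (-10 - 2)
  refine ⟨C * (C₁ * |K| + C₂ * |K|), by positivity, fun σ hσ cf G hb he hG => ?_⟩
  have a := h 1 one_pos le_rfl σ hσ cf G 0 (bd_le hb (le_four K)) he (sig_le hσ hG)
  rw [add_zero, tp_zero_fun, add_zero] at a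
  have e : PE 0 = pair 1 0 (-10) := by rw [PE, Nat.cast_zero, zero_sub]
  rw [e]
  refine a.trans (mul_le_mul_of_nonneg_left (add_le_add ?_ ?_) p)
  · exact (tp_le_nT one_pos (Nat.zero_le 4) _ _).trans
      (h₁ _ _ fun x => (hG x).trans (le_abs_self K))
  · have := (tp_le_nT one_pos (Nat.zero_le 4) _ _).trans
      (h₂ cf.e0 _ fun x => (hb x).2.2.2.trans (le_abs_self K))
    rcases hσ with rfl | rfl
    · rw [zero_mul]; positivity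
    · rwa [one_mul]

/-- `en_top n (n/2) _ _ ((n+2 : ℕ) - 10) c0 (4 K)` with source `0`, drop the good term (`tp_nonneg`);
`nT_one_le`, `nT_zero_fun`. -/
lemma en_lev (n : ℕ) (hn : 2 ≤ n) (c0 K : ℝ) (hc : 0 < c0) : ∃ C, 0 ≤ C ∧ ∀ σ : ℝ, (σ = 0 ∨ σ = 1) →
    ∀ (cf : Cf) (G : SF), cf.Bd 1 n K → (∀ x, c0 ≤ ev x (cf.a - σ • (q * G))) →
    (∀ x, Tv 1 (n / 2 + 4) G x ≤ K) → 2 * PE (n + 2) (rhs σ cf G) G ≤ C := by
  obtain ⟨c, C, pc, p, h⟩ := en_top n (n / 2) (by omega) (by omega) (((n + 2 : ℕ) : ℝ) - 10) c0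
    (4 * |K|) hc
  obtain ⟨C₁, p₁, h₁⟩ := nT_one_le (n / 2 + 4) (((n + 2 : ℕ) : ℝ) - 10 + 2)
  obtain ⟨C₂, p₂, h₂⟩ := nT_one_le n (((n + 2 : ℕ) : ℝ) - 10 - 2)
  refine ⟨C * (C₁ * |K| + C₂ * |K|), by positivity, fun σ hσ cf G hb he hG => ?_⟩
  have a := h 1 one_pos le_rfl σ hσ cf G 0 (bd_le hb (le_four K)) he (sig_le hσ hG)
  rw [add_zero, nT_zero_fun, add_zero] at a
  have a0 := mul_nonneg pc.le (tp_nonneg 1 (n + 4) (((n + 2 : ℕ) : ℝ) - 10 + 2) G)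
  have a1 : tp 1 0 (((n + 2 : ℕ) : ℝ) - 10 + 2) G + σ * nT 1 n (((n + 2 : ℕ) : ℝ) - 10 - 2) cf.e0 ≤
      C₁ * |K| + C₂ * |K| := by
    refine add_le_add ?_ ?_
    · exact (tp_le_nT one_pos (Nat.zero_le _) _ _).trans
        (h₁ _ _ fun x => (hG x).trans (le_abs_self K))
    · have := h₂ cf.e0 _ fun x => (hb x).2.2.2.trans (le_abs_self K)
      rcases hσ with rfl | rfl
      · rw [zero_mul]; positivity
      · rwa [one_mul]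
  have a2 := mul_le_mul_of_nonneg_left a1 p
  unfold PE
  linarith

/-- `en_diff (-10) c0 (4 K)`, `tp_le_EE`. -/
lemma en_dif (c0 K : ℝ) (hc : 0 < c0) : ∃ C, 0 ≤ C ∧ ∀ σ : ℝ, (σ = 0 ∨ σ = 1) →
    ∀ (cf : Cf) (G₁ G₂ : SF), cf.Bd 1 4 K → (∀ x, c0 ≤ ev x (cf.a - σ • (q * G₁))) →
    (∀ x, Tv 1 4 G₁ x ≤ K) → (∀ x, Tv 1 4 G₂ x ≤ K) →
    2 * PE 0 (rhs σ cf G₁ - rhs σ cf G₂) (G₁ - G₂) ≤ C * EE 0 (G₁ - G₂) := by
  obtain ⟨C, p, h⟩ := en_diff (-10) c0 (4 * |K|) hc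
  obtain ⟨C₁, p₁, h₁⟩ := tp_le_EE 0 (-10 + 2)
  refine ⟨C * C₁, by positivity, fun σ hσ cf G₁ G₂ hb he h1 h2 => ?_⟩
  have a := h 1 one_pos le_rfl σ hσ cf G₁ G₂ (bd_le hb (le_four K)) he (sig_le hσ h1)
    (sig_le hσ h2)
  have e : PE 0 = pair 1 0 (-10) := by rw [PE, Nat.cast_zero, zero_sub]
  rw [e, mul_assoc]
  exact a.trans (mul_le_mul_of_nonneg_left (h₁ _) p)

end Crest.Agent.R213.Lx
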