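import Crest.Agent.R213.LE.Ode
import Crest.Agent.R213.LE.Poly
import Crest.Agent.R213.LE.Rhs

/-! Row 213, block LE (owner helper24): Galerkin solutions and their a-priori bounds. -/

set_option autoImplicit false
open Set Filter Topology

noncomputable section
namespace Crest.Agent.R213.Lx

/-- Galerkin solution on `[s,T]` -/
def Gal (N : ℕ) (σ : ℝ) (cf : ℝ → Cf) (G : ℝ → SF) (s T : ℝ) : Prop :=
  Sol (fun t g => Pr N (rhs σ (cf t) g)) G (Icc s T) ∧ ∀ t ∈ Icc s T, G t ∈ VP N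

/-- ellipticity -/
def Ell (σ c : ℝ) (cf : Cf) (G : SF) : Prop := ∀ x, c ≤ ev x (cf.a - σ • (q * G))

/-- the basic energy -/
def YY (G : SF) : ℝ := EE 0 G + EE 40 G

lemma Gal.mono {N : ℕ} {σ : ℝ} {cf : ℝ → Cf} {G : ℝ → SF} {s T T' : ℝ} (h : Gal N σ cf G s T)
    (hT : T' ≤ T) : Gal N σ cf G s T' :=
  ⟨h.1.mono (Icc_subset_Icc_right hT), fun t ht => h.2 t (Icc_subset_Icc_right hT ht)⟩

lemma Gal.deriv {N : ℕ} {σ : ℝ} {cf : ℝ → Cf} {G : ℝ → SF} {s T : ℝ} (h : Gal N σ cf G s T)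
    (j : ℕ) {t : ℝ} (ht : t ∈ Icc s T) : HasDerivWithinAt (fun τ => EE j (G τ))
      (2 * PE j (rhs σ (cf t) (G t)) (G t)) (Icc s T) t := by
  have := hasDeriv_EE (h.1 t ht) j
  rwa [PE_Pr j N _ (h.2 t ht)] at this

lemma gal_of_ode {N : ℕ} {σ : ℝ} {cf : ℝ → Cf} {s T : ℝ} {g : ℝ → EV N}
    (h : ∀ t ∈ Icc s T, HasDerivWithinAt g (Pr0 N (rhs σ (cf t) (emb N (g t)))) (Icc s T) t) :
    Gal N σ cf (fun t => emb N (g t)) s T :=
  ⟨fun t ht i => (jetL N i).hasFDerivAt.comp_hasDerivWithinAt t (h t ht), fun _ _ => emb_mem _ _⟩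

/-- `ode_apriori` in `EV N` for `F t c = Pr0 N (rhs σ (cf t) (emb N c))`.  Continuity in `t`:
`norm_Pr0_le` and `(JC.rhs σ hjc (JC.const _)) 0`; Lipschitz on balls: `Cf_bd 4`, `Tv_le_norm N 4`,
`rhs_lip`, `norm_Pr0_le`; a solution `g` gives `Gal N σ cf (emb N ∘ g)` by
`(jetL N i).hasFDerivAt.comp_hasDerivWithinAt`; `norm_le_emb`, `jet_le_Tv 0`. -/
lemma gal_exists (N : ℕ) {σ : ℝ} (hσ : σ = 0 ∨ σ = 1) {cf : ℝ → Cf} {s T : ℝ} (hs : s ≤ T)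
    (hjc : CfJC cf (Icc s T)) {p : SF} (hp : p ∈ VP N) (M : ℝ)
    (hap : ∀ T' ∈ Icc s T, ∀ G, Gal N σ cf G s T' → G s = p → ∀ x, Tv 1 0 (G T') x ≤ M) :
    ∃ G, Gal N σ cf G s T ∧ G s = p := by
  obtain ⟨c₀, rfl⟩ := exists_emb hp
  obtain ⟨C₁, p₁, h₁⟩ := norm_Pr0_le N
  obtain ⟨C₂, p₂, h₂⟩ := norm_le_emb N
  obtain ⟨C₃, p₃, h₃⟩ := Tv_le_norm N 4
  obtain ⟨K₁, -, k₁⟩ := Cf_bd hjc 4
  obtain ⟨g, g0, hg⟩ := ode_apriori (fun t (c : EV N) => Pr0 N (rhs σ (cf t) (emb N c))) hs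
    (fun c t ht => by
      have a1 : ContinuousWithinAt (fun τ => ((rhs σ (cf τ) (emb N c) : SF) : CC)) (Icc s T) t :=
        JC.rhs σ hjc (JC.const (emb N c)) 0 t ht
      rw [ContinuousWithinAt, tendsto_iff_norm_sub_tendsto_zero] at a1 ⊢
      refine squeeze_zero (fun _ => norm_nonneg _) (fun τ => ?_) (by simpa using a1.const_mul C₁)
      rw [← map_sub]
      exact h₁ _ _ (norm_nonneg _) fun x => tcb_sq x _)
    (fun M => by
      obtain ⟨C₄, p₄, h₄⟩ := rhs_lip (max K₁ (C₃ * M ^ 2))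
      refine ⟨⟨C₁ * √(C₄ * C₃), by positivity⟩, fun t ht =>
        LipschitzOnWith.of_dist_le_mul fun a ha b hb => ?_⟩
      have hb' : ∀ c ∈ Metric.closedBall (0 : EV N) M, ∀ x,
          Tv 1 4 (emb N c) x ≤ max K₁ (C₃ * M ^ 2) := fun c hc x =>
        ((h₃ c x).trans (mul_le_mul_of_nonneg_left
          (pow_le_pow_left₀ (norm_nonneg _) (mem_closedBall_zero_iff.1 hc) 2) p₃)).trans
          (le_max_right _ _)
      rw [dist_eq_norm, dist_eq_norm, ← map_sub]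
      change _ ≤ C₁ * √(C₄ * C₃) * _
      rw [mul_assoc]
      refine h₁ _ _ (by positivity) fun x => ?_
      refine (h₄ σ hσ _ _ _ x (bd_le (k₁ t ht) (le_max_left _ _)) (hb' a ha x) (hb' b hb x)).trans ?_
      rw [← map_sub, mul_pow, Real.sq_sqrt (by positivity), mul_assoc]
      exact mul_le_mul_of_nonneg_left (h₃ _ x) p₄)
    c₀ (C₂ * √|M|) (fun T' hT' g g0 hg => by
      have := hap T' hT' _ (gal_of_ode hg) (by simp only [g0])
      refine (h₂ _).trans (mul_le_mul_of_nonneg_left ?_ p₂)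
      exact jet_le_Tv 0 (Real.sqrt_nonneg _) fun x => by
        rw [Real.sq_sqrt (abs_nonneg _)]; exact (this x).trans (le_abs_self _))
  exact ⟨_, gal_of_ode hg, by simp only [g0]⟩

/-- `ψ t = EE 0 (G t - u)` has derivative `2 PE 0 (Pr (rhs)) (G t - u) ≤ EE 0 (rhs) + ψ ≤ C`
(`hasDeriv_EE` for `JD.sub _ (JD.const u)`, `two_PE_le`, `EE_Pr_le`, `EE_zero_le`, `rhs_bd 0`, `Tv_le_EE 4 40`,
`EE_sub`), so `ψ t ≤ η + C τ` (`le_of_deriv_le`); `(G t - u)² ≤ δ EE 40 (G t - u) + C_δ ψ t ≤ (c/4)²`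
(`Tv_interp 0 40`, `Tv_zero`); `|a t - a s| ≤ c/4` by uniform continuity of `t ↦ ((cf t).a : CC)` on
`Icc t0 t1` (`hjc.1 0`, `IsCompact.uniformContinuousOn_of_continuous`); `0 ≤ q ≤ 1`. -/
lemma apri_ell {cf : ℝ → Cf} {t0 t1 : ℝ} (hjc : CfJC cf (Icc t0 t1)) {σ : ℝ} (hσ : σ = 0 ∨ σ = 1)
    (c B : ℝ) (hc : 0 < c) : ∃ τ η, 0 < τ ∧ 0 < η ∧ ∀ s ∈ Icc t0 t1, ∀ u : SF, Ell σ c (cf s) u →
      YY u ≤ B → ∀ N, EE 0 (u - Pr N u) ≤ η → ∀ T, T ≤ min (s + τ) t1 → ∀ G, Gal N σ cf G s T →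
      G s = Pr N u → (∀ t ∈ Icc s T, YY (G t) ≤ B) → ∀ t ∈ Icc s T, Ell σ (c / 2) (cf t) (G t) := by
  set B' := |B| + 1 with hB'
  have hB0 : 0 < B' := by positivity
  have hBB : B ≤ B' := by linarith [le_abs_self B]
  obtain ⟨K₁, p₁, k₁⟩ := Cf_bd hjc 0
  obtain ⟨C₄, p₄, k₄⟩ := Tv_le_EE 4 40 (by norm_num)
  obtain ⟨Cr, pr, kr⟩ := rhs_bd 0 (max K₁ (C₄ * B'))
  obtain ⟨Cd, pd, kd⟩ := Tv_interp 0 40 (by norm_num) (c ^ 2 / 48 / (4 * B')) (by positivity)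
  obtain ⟨τ₁, hτ₁, hu₁⟩ := Metric.uniformContinuousOn_iff_le.1
    (isCompact_Icc.uniformContinuousOn_of_continuous (hjc.1 0)) (c / 4) (by positivity)
  refine ⟨min τ₁ (c ^ 2 / 48 / ((Cd + 1) * (Cr + 4 * B'))), c ^ 2 / 48 / (Cd + 1),
    lt_min hτ₁ (by positivity), by positivity,
    fun s hs u hu hY N hN T hT G hG h0 hb t ht x => ?_⟩
  have hT1 : T ≤ t1 := hT.trans (min_le_right _ _)
  have hsub : Icc s T ⊆ Icc t0 t1 := Icc_subset_Icc hs.1 hT1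
  have hts : t - s ≤ min τ₁ (c ^ 2 / 48 / ((Cd + 1) * (Cr + 4 * B'))) := by
    linarith [ht.2, hT.trans (min_le_left _ _)]
  have hE : ∀ f : SF, YY f ≤ B → EE 0 f ≤ B' ∧ EE 40 f ≤ B' := fun f hf => by
    have := EE_nonneg 0 f
    have := EE_nonneg 40 f
    unfold YY at hf
    constructor <;> linarith
  have hψ := le_of_deriv_le (s := s) (T := T) (C := Cr + 4 * B') (y := fun r => EE 0 (G r - u))
    (y' := fun r => 2 * PE 0 (Pr N (rhs σ (cf r) (G r)) - 0) (G r - u))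
    (fun r hr => hasDeriv_EE ((hG.1 r hr).sub (JD.const u)) 0) (fun r hr => by
      rw [sub_zero]
      have a1 := two_PE_le 0 (Pr N (rhs σ (cf r) (G r))) (G r - u)
      have a2 := EE_Pr_le 0 N (rhs σ (cf r) (G r))
      have a3 : EE 0 (rhs σ (cf r) (G r)) ≤ Cr := EE_zero_le fun y => by
        rw [← Tv_zero 1]
        refine kr σ hσ _ _ y (fun z => ?_) (((k₄ _ y).trans ?_).trans (le_max_right _ _))
        · obtain ⟨a, b, c, d⟩ := k₁ r (hsub hr) z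
          exact ⟨a.trans (le_max_left _ _), b.trans (le_max_left _ _), c.trans (le_max_left _ _),
            d.trans (le_max_left _ _)⟩
        · exact mul_le_mul_of_nonneg_left ((hb r hr).trans hBB) p₄
      have a4 := EE_sub 0 (G r) u
      linarith [(hE _ (hb r hr)).1, (hE _ hY).1]) t ht
  simp only [h0] at hψ
  rw [EE_sub_comm 0 (Pr N u)] at hψ
  have b1 : ev x (G t - u) ^ 2 ≤ (c / 4) ^ 2 := by
    have a1 := kd (G t - u) x
    rw [Tv_zero] at a1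
    have a2 : EE 40 (G t - u) ≤ 4 * B' := by
      linarith [EE_sub 40 (G t) u, (hE _ (hb t ht)).2, (hE _ hY).2]
    have a3 : c ^ 2 / 48 / (4 * B') * EE 40 (G t - u) ≤ c ^ 2 / 48 := by
      refine (mul_le_mul_of_nonneg_left a2 (by positivity)).trans (le_of_eq ?_)
      field_simp
    have a4 : (Cr + 4 * B') * (t - s) ≤ c ^ 2 / 48 / (Cd + 1) := by
      refine (mul_le_mul_of_nonneg_left (hts.trans (min_le_right _ _)) (by positivity)).trans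
        (le_of_eq ?_)
      field_simp
    have a5 : EE 0 (G t - u) ≤ 2 * (c ^ 2 / 48 / (Cd + 1)) := by linarith
    have a6 : Cd * EE 0 (G t - u) ≤ 2 * (c ^ 2 / 48) := by
      refine (mul_le_mul (le_add_of_nonneg_right zero_le_one) a5 (EE_nonneg _ _)
        (by positivity)).trans (le_of_eq ?_)
      field_simp
    linarith
  have b2 : |ev x (G t - u)| ≤ c / 4 := abs_le_of_sq_le_sq' b1 (by positivity) |> abs_le.2
  have b3 : |ev x ((cf t).a - (cf s).a)| ≤ c / 4 := by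
    have := hu₁ t (hsub ht) s hs (by
      rw [Real.dist_eq, abs_of_nonneg (by linarith [ht.1])]
      exact hts.trans (min_le_left _ _))
    rw [dist_eq_norm] at this
    exact (abs_ev_le x _).trans this
  have b4 := hu x
  have q0 := ev_q_nonneg x
  have q1 : ev x q ≤ 1 := by
    rw [ev_q]; nlinarith [x.2.1, x.2.2]
  have b5 : σ * (ev x q * ev x (G t - u)) ≤ c / 4 := by
    have : ev x q * ev x (G t - u) ≤ c / 4 := by
      nlinarith [(abs_le.1 b2).2, (abs_le.1 b2).1]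
    rcases hσ with rfl | rfl
    · rw [zero_mul]; positivity
    · rwa [one_mul]
  simp only [map_sub, ev_smul, map_mul] at b3 b4 b5 ⊢
  nlinarith [(abs_le.1 b3).1]

/-- `Gal.deriv` at the levels `0`, `40`; `en_lev0`, `en_lev 38`, `Tv_le_EE 25 40`, `Cf_bd 38`,
`le_of_deriv_le`. -/
lemma apri_en {cf : ℝ → Cf} {t0 t1 : ℝ} (hjc : CfJC cf (Icc t0 t1)) {σ : ℝ} (hσ : σ = 0 ∨ σ = 1)
    (c B : ℝ) (hc : 0 < c) : ∃ C, 0 ≤ C ∧ ∀ s T, t0 ≤ s → T ≤ t1 → ∀ N G, Gal N σ cf G s T →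
      (∀ t ∈ Icc s T, YY (G t) ≤ B ∧ Ell σ c (cf t) (G t)) →
      ∀ t ∈ Icc s T, YY (G t) ≤ YY (G s) + C * (t - s) := by
  obtain ⟨K₁, -, k₁⟩ := Cf_bd hjc 38
  obtain ⟨C₁, p₁, h₁⟩ := Tv_le_EE 25 40 le_rfl
  obtain ⟨C₂, p₂, h₂⟩ := en_lev0 c (max K₁ (C₁ * B)) hc
  obtain ⟨C₃, p₃, h₃⟩ := en_lev 38 (by norm_num) c (max K₁ (C₁ * B)) hc
  refine ⟨C₂ + C₃, by positivity, fun s T hs hT N G hG hb => ?_⟩
  refine le_of_deriv_le (y := fun t => YY (G t))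
    (fun t ht => (hG.deriv 0 ht).add (hG.deriv 40 ht)) fun t ht => ?_
  have a1 := bd_le (k₁ t (Icc_subset_Icc hs hT ht)) (le_max_left K₁ (C₁ * B))
  have a2 : ∀ x, Tv 1 25 (G t) x ≤ max K₁ (C₁ * B) := fun x =>
    ((h₁ _ x).trans (mul_le_mul_of_nonneg_left (hb t ht).1 p₁)).trans (le_max_right _ _)
  exact add_le_add (h₂ σ hσ _ _ (a1.mono one_pos (by norm_num)) (hb t ht).2 fun x =>
      (Tv_mono one_pos (by norm_num) _ _).trans (a2 x))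
    (h₃ σ hσ _ _ a1 (hb t ht).2 fun x => (Tv_mono one_pos (by norm_num) _ _).trans (a2 x))

lemma apriori {cf : ℝ → Cf} {t0 t1 : ℝ} (hjc : CfJC cf (Icc t0 t1)) {σ : ℝ} (hσ : σ = 0 ∨ σ = 1)
    (c R : ℝ) (hc : 0 < c) : ∃ τ η, 0 < τ ∧ 0 < η ∧ ∀ s ∈ Icc t0 t1, ∀ u : SF, Ell σ c (cf s) u →
      YY u ≤ R → ∀ N, EE 0 (u - Pr N u) ≤ η → ∀ T, T ≤ min (s + τ) t1 → ∀ G, Gal N σ cf G s T →
      G s = Pr N u → ∀ t ∈ Icc s T, YY (G t) ≤ R + 1 ∧ Ell σ (c / 2) (cf t) (G t) := by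
  obtain ⟨τ, η, hτ, hη, h₁⟩ := apri_ell hjc hσ c (R + 1) hc
  obtain ⟨C, hC, h₂⟩ := apri_en hjc hσ (c / 2) (R + 1) (half_pos hc)
  refine ⟨min τ (1 / (2 * C + 1)), η, lt_min hτ (by positivity), hη,
    fun s hs u hu hR N hN T hT G hG h0 => ?_⟩
  have hT1 : T ≤ min (s + τ) t1 :=
    hT.trans (min_le_min_right _ (by linarith [min_le_left τ (1 / (2 * C + 1))]))
  have hT2 : T - s ≤ 1 / (2 * C + 1) := by
    linarith [hT.trans (min_le_left _ _), min_le_right τ (1 / (2 * C + 1))]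
  have hY0 : YY (G s) ≤ R := by
    rw [h0]; exact (add_le_add (EE_Pr_le 0 N u) (EE_Pr_le 40 N u)).trans hR
  have key : ∀ t ∈ Icc s T, YY (G t) ≤ R + 1 / 2 := by
    refine bootstrap (B := R + 1) (φ := fun t => YY (G t)) (fun t ht =>
      ((hG.deriv 0 ht).add (hG.deriv 40 ht)).continuousWithinAt) (by linarith) (by linarith)
      fun t ht hb => ?_
    have hG' := hG.mono ht.2
    have e := h₁ s hs u hu (by linarith) N hN t (ht.2.trans hT1) G hG' h0 hb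
    have := h₂ s t hs.1 (ht.2.trans (hT.trans (min_le_right _ _))) N G hG'
      (fun r hr => ⟨hb r hr, e r hr⟩) t ⟨ht.1, le_rfl⟩
    have a1 : C * (t - s) ≤ C * (1 / (2 * C + 1)) :=
      mul_le_mul_of_nonneg_left (by linarith [ht.2]) hC
    have a2 : C * (1 / (2 * C + 1)) ≤ 1 / 2 := by
      rw [mul_one_div, div_le_iff₀ (by positivity)]; linarith
    linarith
  have key' : ∀ t ∈ Icc s T, YY (G t) ≤ R + 1 := fun t ht => by linarith [key t ht]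
  exact fun t ht => ⟨key' t ht, h₁ s hs u hu (by linarith) N hN T hT1 G hG h0 key' t ht⟩

/-- Induction on `j` for a bound of `EE 0 (G t) + EE (40 + j) (G t)`: `Tv_le_EE ((39+j)/2 + 4) (40+j)`,
`en_lev (39+j)`, `Cf_bd`, `Gal.deriv`, `le_of_deriv_le`, `EE_Pr_le`; finally `Tv_le_EE m (40+m)`. -/
lemma gal_high {cf : ℝ → Cf} {s T : ℝ} (hjc : CfJC cf (Icc s T)) {σ : ℝ} (hσ : σ = 0 ∨ σ = 1)
    (c B : ℝ) (hc : 0 < c) (u : SF) (m : ℕ) : ∃ K, ∀ N G, Gal N σ cf G s T → G s = Pr N u →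
      (∀ t ∈ Icc s T, YY (G t) ≤ B ∧ Ell σ c (cf t) (G t)) →
      ∀ t ∈ Icc s T, ∀ x, Tv 1 m (G t) x ≤ K := by
  have key : ∀ j : ℕ, ∃ K, ∀ N G, Gal N σ cf G s T → G s = Pr N u →
      (∀ t ∈ Icc s T, YY (G t) ≤ B ∧ Ell σ c (cf t) (G t)) →
      ∀ t ∈ Icc s T, EE 0 (G t) + EE (j + 40) (G t) ≤ K := by
    intro j
    induction j with
    | zero => exact ⟨B, fun N G _ _ hb t ht => (hb t ht).1⟩
    | succ j ih =>
      obtain ⟨K, hK⟩ := ih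
      obtain ⟨K₁, -, k₁⟩ := Cf_bd hjc (j + 39)
      obtain ⟨C₁, p₁, h₁⟩ := Tv_le_EE ((j + 39) / 2 + 4) (j + 40) (by omega)
      obtain ⟨C₃, p₃, h₃⟩ := en_lev (j + 39) (by omega) c (max K₁ (C₁ * K)) hc
      refine ⟨K + (EE (j + 1 + 40) u + C₃ * (T - s)), fun N G hG h0 hb t ht => ?_⟩
      have a1 := le_of_deriv_le (C := C₃) (y := fun t => EE (j + 39 + 2) (G t))
        (fun t ht => hG.deriv (j + 39 + 2) ht) (fun t ht =>
          h₃ σ hσ _ _ (bd_le (k₁ t ht) (le_max_left _ _)) (hb t ht).2 fun x =>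
            ((h₁ _ x).trans (mul_le_mul_of_nonneg_left (hK N G hG h0 hb t ht) p₁)).trans
              (le_max_right _ _)) t ht
      simp only [h0] at a1
      rw [show j + 39 + 2 = j + 1 + 40 by omega] at a1
      have a2 := EE_Pr_le (j + 1 + 40) N u
      have a3 := hK N G hG h0 hb t ht
      have a4 := EE_nonneg (j + 40) (G t)
      have a5 : C₃ * (t - s) ≤ C₃ * (T - s) := mul_le_mul_of_nonneg_left (by linarith [ht.2]) p₃
      linarith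
  obtain ⟨K, hK⟩ := key m
  obtain ⟨C₁, p₁, h₁⟩ := Tv_le_EE m (m + 40) (by omega)
  exact ⟨C₁ * K, fun N G hG h0 hb t ht x =>
    (h₁ _ x).trans (mul_le_mul_of_nonneg_left (hK N G hG h0 hb t ht) p₁)⟩

/-- `rhs_bd 2`, `Cf_bd`, `jackson` -/
lemma gal_defect {cf : ℝ → Cf} {s T : ℝ} (hjc : CfJC cf (Icc s T)) {σ : ℝ} (hσ : σ = 0 ∨ σ = 1)
    (K : ℝ) : ∃ C, 0 ≤ C ∧ ∀ N, 0 < N → ∀ t ∈ Icc s T, ∀ G : SF, (∀ x, Tv 1 6 G x ≤ K) →
      EE 0 (rhs σ (cf t) G - Pr (N + 1) (rhs σ (cf t) G)) ≤ C / N := by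
  obtain ⟨K₁, p₁, h₁⟩ := Cf_bd hjc 2
  obtain ⟨C, p, h⟩ := rhs_bd 2 (max K K₁)
  refine ⟨C, p, fun N hN t ht G hG => jackson N hN _ fun x =>
    h σ hσ _ _ x (fun y => ?_) ((hG x).trans (le_max_left _ _))⟩
  obtain ⟨a, b, c, d⟩ := h₁ t ht y
  exact ⟨a.trans (le_max_right _ _), b.trans (le_max_right _ _), c.trans (le_max_right _ _),
    d.trans (le_max_right _ _)⟩

/-- `y = EE 0 (G - H)`, `y' = 2 PE 0 (Pr U - Pr' V) ζ = 2 PE 0 (U - V) ζ - 2 PE 0 (U - Pr U) ζ +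
2 PE 0 (V - Pr' V) ζ ≤ (C + 2) y + 2 C'/N` (`en_dif`, `two_PE_le`, `gal_defect`); `y s ≤ 4K/N` (`EE_tri`,
`jackson`); `gron`. -/
lemma gal_cauchy {cf : ℝ → Cf} {s T : ℝ} (hjc : CfJC cf (Icc s T)) {σ : ℝ} (hσ : σ = 0 ∨ σ = 1)
    (c K : ℝ) (hc : 0 < c) : ∃ C, 0 ≤ C ∧ ∀ (n N M : ℕ), 0 < n → n ≤ N → n ≤ M →
      ∀ (G H : ℝ → SF) (u : SF), Gal (N + 1) σ cf G s T → Gal (M + 1) σ cf H s T →
      G s = Pr (N + 1) u → H s = Pr (M + 1) u → (∀ x, Tv 1 2 u x ≤ K) →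
      (∀ t ∈ Icc s T, Ell σ c (cf t) (G t) ∧ (∀ x, Tv 1 6 (G t) x ≤ K) ∧ ∀ x, Tv 1 6 (H t) x ≤ K) →
      ∀ t ∈ Icc s T, EE 0 (G t - H t) ≤ C / n := by
  obtain ⟨K₁, -, k₁⟩ := Cf_bd hjc 4
  obtain ⟨C₁, p₁, h₁⟩ := en_dif c (max K₁ K) hc
  obtain ⟨C₂, p₂, h₂⟩ := gal_defect hjc hσ K
  refine ⟨(4 * |K| + 2 * C₂ * |T - s|) * Real.exp ((C₁ + 2) * (T - s)), by positivity,
    fun n N M hn hN hM G H u hG hH g0 h0 hu hb t ht => ?_⟩
  have hn' : (0 : ℝ) < n := by exact_mod_cast hn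
  have hd : ∀ {C : ℝ}, 0 ≤ C → ∀ {k : ℕ}, n ≤ k → C / k ≤ C / n := fun hC k hk =>
    div_le_div_of_nonneg_left hC hn' (by exact_mod_cast hk)
  have a := gron (s := s) (T := T) (K := C₁ + 2) (ε := 2 * (C₂ / n))
    (y := fun t => EE 0 (G t - H t))
    (y' := fun t => 2 * PE 0 (Pr (N + 1) (rhs σ (cf t) (G t)) - Pr (M + 1) (rhs σ (cf t) (H t)))
      (G t - H t)) (by positivity) (by positivity) (EE_nonneg _ _)
    (fun t ht => hasDeriv_EE ((hG.1 t ht).sub (hH.1 t ht)) 0) (fun t ht => by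
      obtain ⟨b1, b2, b3⟩ := hb t ht
      set U := rhs σ (cf t) (G t) with hU
      set V := rhs σ (cf t) (H t) with hV
      have e : Pr (N + 1) U - Pr (M + 1) V =
          (U - V) + (Pr (N + 1) U - U) + (V - Pr (M + 1) V) := by abel
      have a1 := h₁ σ hσ (cf t) (G t) (H t) (bd_le (k₁ t ht) (le_max_left _ _)) b1
        (fun x => ((Tv_mono one_pos (by norm_num) _ _).trans (b2 x)).trans (le_max_right _ _))
        (fun x => ((Tv_mono one_pos (by norm_num) _ _).trans (b3 x)).trans (le_max_right _ _))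
      have a2 := two_PE_le 0 (Pr (N + 1) U - U) (G t - H t)
      have a3 := two_PE_le 0 (V - Pr (M + 1) V) (G t - H t)
      have a4 := (h₂ N (by omega) t ht _ b2).trans (hd p₂ hN)
      have a5 := (h₂ M (by omega) t ht _ b3).trans (hd p₂ hM)
      rw [EE_sub_comm] at a4
      rw [e, map_add, map_add, LinearMap.add_apply, LinearMap.add_apply]
      linarith) t ht
  simp only [g0, h0] at a
  have hu' : ∀ x, Tv 1 2 u x ≤ |K| := fun x => (hu x).trans (le_abs_self K)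
  have b1 := (jackson N (by omega) u hu').trans (hd (abs_nonneg K) hN)
  have b2 := (jackson M (by omega) u hu').trans (hd (abs_nonneg K) hM)
  have b3 := EE_tri 0 (Pr (N + 1) u) u (Pr (M + 1) u)
  rw [EE_sub_comm] at b1
  have b4 : C₂ / n * (T - s) ≤ C₂ / n * |T - s| :=
    mul_le_mul_of_nonneg_left (le_abs_self _) (by positivity)
  refine a.trans ?_
  rw [mul_div_right_comm]
  refine mul_le_mul_of_nonneg_right ?_ (Real.exp_pos _).le
  have e : (4 * |K| + 2 * C₂ * |T - s|) / n = 4 * (|K| / n) + 2 * (C₂ / n * |T - s|) := by ring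
  rw [e]
  linarith

end Crest.Agent.R213.Lx
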