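import Crest.Agent.R213.LE.Ode
import Crest.Agent.R213.LE.Base

/-! Row 213, block LE (owner helper24): passing to the limit. -/

set_option autoImplicit false
open Set Filter Topology

noncomputable section
namespace Crest.Agent.R213.Lx

lemma lima_cau {G : ℕ → ℝ → SF} {s : Set ℝ}
    (hb : ∀ m, ∃ K, ∀ k, ∀ t ∈ s, ∀ x, Tv 1 m (G k t) x ≤ K)
    (hcau : ∀ ε, 0 < ε → ∃ N, ∀ k, N ≤ k → ∀ k', N ≤ k' → ∀ t ∈ s, EE 0 (G k t - G k' t) ≤ ε)
    (i : ℕ) (ε : ℝ) (hε : 0 < ε) : ∃ N, ∀ k, N ≤ k → ∀ k', N ≤ k' → ∀ t ∈ s,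
      ‖((Dn i (G k t) : SF) : CC) - ((Dn i (G k' t) : SF) : CC)‖ ≤ ε := by
  obtain ⟨K, hK⟩ := hb (2 * i + 16)
  obtain ⟨C₁, -, h₁⟩ := EE_le_Tv (2 * i + 16)
  obtain ⟨B, hB0, hB⟩ : ∃ B : ℝ, 0 < B ∧ ∀ k, ∀ t ∈ s, EE (2 * i + 16) (G k t) ≤ B :=
    ⟨|C₁ * K| + 1, by positivity, fun k t ht =>
      (h₁ _ _ (hK k t ht)).trans ((le_abs_self _).trans (by linarith))⟩
  obtain ⟨C, hC, h₂⟩ := Tv_interp (2 * i) (2 * i + 16) le_rfl (ε ^ 2 / (8 * B)) (by positivity)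
  obtain ⟨N, hN⟩ := hcau (ε ^ 2 / (2 * (C + 1))) (by positivity)
  refine ⟨N, fun k hk k' hk' t ht => ?_⟩
  have := jet_le_Tv i (f := G k t - G k' t) hε.le fun x => (h₂ _ x).trans (by
    have a1 : EE (2 * i + 16) (G k t - G k' t) ≤ 4 * B :=
      (EE_sub _ _ _).trans (by linarith [hB k t ht, hB k' t ht])
    have a2 := mul_le_mul_of_nonneg_left a1 (show 0 ≤ ε ^ 2 / (8 * B) by positivity)
    have a3 := mul_le_mul (show C ≤ C + 1 by linarith) (hN k hk k' hk' t ht) (EE_nonneg _ _)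
      (by positivity)
    have e1 : ε ^ 2 / (8 * B) * (4 * B) = ε ^ 2 / 2 := by field_simp; norm_num
    have e2 : (C + 1) * (ε ^ 2 / (2 * (C + 1))) = ε ^ 2 / 2 := by field_simp
    linarith)
  rwa [map_sub] at this

/-- Each jet `t ↦ Dn i (G k t)` is uniformly Cauchy on `s` in `CC` (`jet_le_Tv i`,
`Tv_interp (2i) (2i+16)`, `EE_sub`, `EE_le_Tv`); limits `g i t` (`CC` is complete; `choose!`), uniform
convergence (`UniformCauchySeqOn.tendstoUniformlyOn_of_tendsto`) and continuity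
(`TendstoUniformlyOn.continuousOn`); the relation of `exists_SF_of_jets` passes to the limit (`integral_D`,
the continuous linear forms `jd_L x` and evaluation); `Tv_le_jets`. -/
lemma exists_limit {G : ℕ → ℝ → SF} {s : Set ℝ} (hc : ∀ k, JC (G k) s)
    (hb : ∀ m, ∃ K, ∀ k, ∀ t ∈ s, ∀ x, Tv 1 m (G k t) x ≤ K)
    (hcau : ∀ ε, 0 < ε → ∃ N, ∀ k, N ≤ k → ∀ k', N ≤ k' → ∀ t ∈ s, EE 0 (G k t - G k' t) ≤ ε) :
    ∃ g : ℝ → SF, JC g s ∧ ∀ m ε, 0 < ε → ∃ N, ∀ k, N ≤ k → ∀ t ∈ s, ∀ x,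
      Tv 1 m (G k t - g t) x ≤ ε := by
  have H := lima_cau hb hcau
  have h1 : ∀ i, ∀ t ∈ s, ∃ a : CC,
      Tendsto (fun k => ((Dn i (G k t) : SF) : CC)) atTop (𝓝 a) := fun i t ht =>
    cauchySeq_tendsto_of_complete (Metric.cauchySeq_iff'.2 fun ε hε => by
      obtain ⟨N, hN⟩ := H i (ε / 2) (half_pos hε)
      exact ⟨N, fun k hk => by
        rw [dist_eq_norm]; linarith [hN k hk N le_rfl t ht]⟩)
  choose! a ha using h1
  have h2 : ∀ t ∈ s, ∃ f : SF, ∀ i, ((Dn i f : SF) : CC) = a i t := fun t ht =>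
    exists_SF_of_jets _ fun i x => by
      have e := fun y : I01 => ((ContinuousMap.evalCLM ℝ y).continuous.tendsto _).comp (ha i t ht)
      refine tendsto_nhds_unique (e x) (((e 0).add
        (((jd_L x).continuous.tendsto _).comp (ha (i + 1) t ht))).congr fun k => ?_)
      have e' := integral_D (Dn i (G k t)) 0 x
      rw [← Dn_succ] at e'
      exact (sub_eq_iff_eq_add'.1 e'.symm).symm
  choose! g hg using h2
  have h3 : ∀ i ε, 0 < ε → ∀ᶠ k in atTop, ∀ t ∈ s,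
      ‖((Dn i (G k t) : SF) : CC) - ((Dn i (g t) : SF) : CC)‖ ≤ ε := fun i ε hε => by
    obtain ⟨N, hN⟩ := H i ε hε
    filter_upwards [eventually_ge_atTop N] with k hk t ht
    rw [hg t ht]
    exact le_of_tendsto ((ha i t ht).const_sub _).norm
      ((eventually_ge_atTop N).mono fun k' hk' => hN k hk k' hk' t ht)
  refine ⟨g, fun i => TendstoUniformlyOn.continuousOn
    (F := fun k t => ((Dn i (G k t) : SF) : CC)) (p := atTop)
    (Metric.tendstoUniformlyOn_iff.2 fun ε hε => ?_) (Frequently.of_forall fun k => hc k i),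
    fun m ε hε => ?_⟩
  · filter_upwards [h3 i (ε / 2) (half_pos hε)] with k hk t ht
    rw [dist_comm, dist_eq_norm]
    linarith [hk t ht]
  · obtain ⟨C, hC, h4⟩ := Tv_le_jets m
    have h5 := ((finite_Iic m).eventually_all).2 fun i _ => h3 i (√(ε / (C + 1))) (by positivity)
    obtain ⟨N, hN⟩ := eventually_atTop.1 h5
    refine ⟨N, fun k hk t ht x => (h4 _ (√(ε / (C + 1))) (fun i hi => ?_) x).trans ?_⟩
    · rw [map_sub]
      exact hN k hk i hi t ht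
    · rw [Real.sq_sqrt (by positivity), ← mul_div_assoc, div_le_iff₀ (by positivity)]
      nlinarith

/-- `V` from `exists_primitive`; `y t = EE 0 (G k t - (g s + V t))` has `y' ≤ y + ε` (`hasDeriv_EE`,
`two_PE_le`), `gron`; so `EE 0 (g t - (g s + V t)) = 0` (`EE_tri`), `eq_zero_of_EE`, `JD.congr`. -/
lemma jd_of_limit {G U : ℕ → ℝ → SF} {g W : ℝ → SF} {s T : ℝ} (hs : s ≤ T)
    (hG : ∀ k, ∀ t ∈ Icc s T, JD (G k) (U k t) (Icc s T) t) (hW : JC W (Icc s T))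
    (h1 : ∀ ε, 0 < ε → ∃ N, ∀ k, N ≤ k → ∀ t ∈ Icc s T, EE 0 (G k t - g t) ≤ ε)
    (h2 : ∀ ε, 0 < ε → ∃ N, ∀ k, N ≤ k → ∀ t ∈ Icc s T, EE 0 (U k t - W t) ≤ ε) :
    ∀ t ∈ Icc s T, JD g (W t) (Icc s T) t := by
  obtain ⟨V, hV0, hV, -⟩ := exists_primitive hs hW
  have hH : ∀ t ∈ Icc s T, JD (fun τ => g s + V τ) (W t) (Icc s T) t := fun t ht => by
    simpa only [zero_add] using (JD.const (g s)).add (hV t ht)
  have key : ∀ t ∈ Icc s T, g t = g s + V t := by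
    intro t ht
    refine sub_eq_zero.1 (eq_zero_of_EE (le_antisymm ?_ (EE_nonneg _ _)))
    obtain ⟨A, hA⟩ : ∃ A : ℝ, A = (1 + (T - s)) * Real.exp (1 * (T - s)) := ⟨_, rfl⟩
    have hTs : 0 ≤ T - s := sub_nonneg.2 hs
    have hA0 : 0 ≤ A := by rw [hA]; positivity
    refine le_of_forall_pos_le_add fun δ hδ => ?_
    have hε : 0 < δ / (2 + 2 * A) := by positivity
    obtain ⟨N1, hN1⟩ := h1 _ hε
    obtain ⟨N2, hN2⟩ := h2 _ hε
    have a1 := hN1 (max N1 N2) (le_max_left _ _)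
    have a2 := hN2 (max N1 N2) (le_max_right _ _)
    generalize max N1 N2 = k at a1 a2
    have hy := gron (K := 1) (ε := δ / (2 + 2 * A)) (s := s) (T := T)
      (y := fun τ => EE 0 (G k τ - (g s + V τ)))
      (y' := fun τ => 2 * PE 0 (U k τ - W τ) (G k τ - (g s + V τ))) zero_le_one hε.le
      (EE_nonneg _ _) (fun τ hτ => hasDeriv_EE ((hG k τ hτ).sub (hH τ hτ)) 0)
      (fun τ hτ => by
        have b1 := two_PE_le 0 (U k τ - W τ) (G k τ - (g s + V τ))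
        have b2 := a2 τ hτ
        linarith) t ht
    simp only [hV0, add_zero] at hy
    have b1 := a1 s (left_mem_Icc.2 hs)
    have b2 := a1 t ht
    have b3 : EE 0 (G k t - (g s + V t)) ≤ δ / (2 + 2 * A) * A := by
      refine hy.trans ?_
      generalize δ / (2 + 2 * A) = ε at *
      rw [hA, ← mul_assoc]
      refine mul_le_mul_of_nonneg_right ?_ (Real.exp_pos _).le
      linarith
    have b4 := EE_tri 0 (g t) (G k t) (g s + V t)
    rw [EE_sub_comm 0 (g t) (G k t)] at b4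
    have b5 : δ / (2 + 2 * A) * (2 + 2 * A) = δ := div_mul_cancel₀ _ (by positivity)
    linarith
  exact fun t ht => (hH t ht).congr key (key t ht)

end Crest.Agent.R213.Lx
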