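import Crest.Agent.R213.LE.Gal
import Crest.Agent.R213.LE.Lim

/-! Row 213: local existence (polynomial Galerkin method) and extension by an a-priori bound. -/

set_option autoImplicit false
open Set Filter Topology

noncomputable section
namespace Crest.Agent.R213

namespace Lx

lemma small_div (C : ℝ) {ε : ℝ} (hε : 0 < ε) : ∃ n : ℕ, 0 < n ∧ ∀ k : ℕ, n ≤ k → C / k ≤ ε := by
  obtain ⟨n, hn⟩ := exists_nat_gt (|C| / ε)
  have h0 : (0 : ℝ) < n := lt_of_le_of_lt (by positivity) hn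
  refine ⟨n, by exact_mod_cast h0, fun k hk => ?_⟩
  have h1 : (n : ℝ) ≤ k := by exact_mod_cast hk
  rw [div_lt_iff₀ hε] at hn
  rw [div_le_iff₀ (by linarith)]
  nlinarith [le_abs_self C]

/-- the limit of a bounded sequence of Galerkin solutions -/
lemma sol_of_gal {cf : ℝ → Cf} {s T : ℝ} (hs : s ≤ T) (hjc : CfJC cf (Icc s T)) {σ : ℝ}
    (hσ : σ = 0 ∨ σ = 1) {c B : ℝ} (hc : 0 < c) (u : SF) (n₀ : ℕ) (G : ℕ → ℝ → SF)
    (hG : ∀ k, Gal (k + n₀ + 1) σ cf (G k) s T ∧ G k s = Pr (k + n₀ + 1) u ∧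
      ∀ t ∈ Icc s T, YY (G k t) ≤ B ∧ Ell σ c (cf t) (G k t)) :
    ∃ g, Sol (fun t => rhs σ (cf t)) g (Icc s T) ∧ g s = u := by
  have hb : ∀ m, ∃ K, ∀ k, ∀ t ∈ Icc s T, ∀ x, Tv 1 m (G k t) x ≤ K := fun m => by
    obtain ⟨K, hK⟩ := gal_high hjc hσ c B hc u m
    exact ⟨K, fun k => hK _ _ (hG k).1 (hG k).2.1 (hG k).2.2⟩
  obtain ⟨K₆, h₆⟩ := hb 6
  obtain ⟨Ku, -, hu⟩ := Tv_fixed 2 u
  have hu := hu 1 one_pos le_rfl
  obtain ⟨C, -, hC⟩ := gal_cauchy hjc hσ c (max K₆ Ku) hc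
  obtain ⟨g, hg, hlim⟩ := exists_limit (G := G) (s := Icc s T) (fun k => (hG k).1.1.jc) hb
    (fun ε hε => by
      obtain ⟨n, hn, h⟩ := small_div C hε
      refine ⟨n, fun k hk k' hk' t ht => (hC n (k + n₀) (k' + n₀) hn (by omega) (by omega) _ _ u
        (hG k).1 (hG k').1 (hG k).2.1 (hG k').2.1 (fun x => (hu x).trans (le_max_right _ _))
        (fun t ht => ⟨((hG k).2.2 t ht).2, fun x => (h₆ k t ht x).trans (le_max_left _ _),
          fun x => (h₆ k' t ht x).trans (le_max_left _ _)⟩) t ht).trans (h n le_rfl)⟩)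
  have h1 : ∀ ε, 0 < ε → ∃ N, ∀ k, N ≤ k → ∀ t ∈ Icc s T, EE 0 (G k t - g t) ≤ ε := fun ε hε => by
    obtain ⟨N, hN⟩ := hlim 0 ε hε
    exact ⟨N, fun k hk t ht => EE_zero_le fun x => by rw [← Tv_zero 1]; exact hN k hk t ht x⟩
  refine ⟨g, jd_of_limit (U := fun k t => Pr (k + n₀ + 1) (rhs σ (cf t) (G k t))) hs
    (fun k => (hG k).1.1) (JC.rhs σ hjc hg) h1 fun ε hε => ?_, ?_⟩
  · obtain ⟨C₁, -, h₁⟩ := gal_defect hjc hσ K₆
    obtain ⟨K₁, -, k₁⟩ := Cf_bd hjc 4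
    obtain ⟨K₂, -, k₂⟩ := JC_bd hg 4
    obtain ⟨C₂, p₂, h₂⟩ := rhs_lip (max K₁ (max K₂ K₆))
    obtain ⟨n, hn, h⟩ := small_div C₁ (show 0 < ε / 4 by positivity)
    obtain ⟨N, hN⟩ := hlim 4 (ε / 4 / (C₂ + 1)) (by positivity)
    refine ⟨max n N, fun k hk t ht => (EE_tri 0 _ (rhs σ (cf t) (G k t)) _).trans ?_⟩
    have a1 := (h₁ (k + n₀) (by omega) t ht _ (h₆ k t ht)).trans (h (k + n₀) (by omega))
    rw [EE_sub_comm] at a1
    have a2 : EE 0 (rhs σ (cf t) (G k t) - rhs σ (cf t) (g t)) ≤ ε / 4 := EE_zero_le fun x => by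
      refine (h₂ σ hσ _ _ _ x (fun y => ?_) ?_ ?_).trans ?_
      · obtain ⟨a, b, c, d⟩ := k₁ t ht y
        exact ⟨a.trans (le_max_left _ _), b.trans (le_max_left _ _), c.trans (le_max_left _ _),
          d.trans (le_max_left _ _)⟩
      · exact ((Tv_mono one_pos (by norm_num) _ _).trans (h₆ k t ht x)).trans
          ((le_max_right _ _).trans (le_max_right _ _))
      · exact (k₂ t ht x).trans ((le_max_left _ _).trans (le_max_right _ _))
      · refine (mul_le_mul_of_nonneg_left (hN k (by omega) t ht x) p₂).trans ?_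
        rw [← mul_div_assoc, div_le_iff₀ (by positivity)]
        nlinarith
    linarith
  · refine sub_eq_zero.1 (eq_zero_of_EE (le_antisymm (le_of_forall_pos_le_add fun ε hε => ?_)
      (EE_nonneg _ _)))
    obtain ⟨n, hn, h⟩ := small_div Ku (show 0 < ε / 4 by positivity)
    obtain ⟨N, hN⟩ := h1 (ε / 4) (by positivity)
    have a1 := hN (max n N) (le_max_right _ _) s ⟨le_rfl, hs⟩
    have a2 := (jackson (max n N + n₀) (by omega) u hu).trans (h _ (by omega))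
    have a3 := EE_tri 0 (g s) (G (max n N) s) u
    rw [EE_sub_comm] at a1 a2
    rw [← (hG (max n N)).2.1] at a2
    linarith

end Lx

open Lx in
/-- Local existence with a uniform existence time. -/
theorem local_ex (cf : ℝ → Cf) (t0 t1 : ℝ) (hjc : CfJC cf (Icc t0 t1)) (σ : ℝ) (hσ : σ = 0 ∨ σ = 1)
    (c R : ℝ) (hc : 0 < c) : ∃ τ, 0 < τ ∧ ∀ s ∈ Icc t0 t1, ∀ u : SF,
      (∀ x, c ≤ ev x ((cf s).a - σ • (q * u))) → QQ 1 0 u ≤ R →
      ∃ G, Sol (fun t => rhs σ (cf t)) G (Icc s (min (s + τ) t1)) ∧ G s = u := by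
  obtain ⟨C₀, p₀, h₀⟩ := EE_le_tp 0 0
  obtain ⟨C₁, p₁, h₁⟩ := EE_le_tp 40 0
  obtain ⟨τ, η, hτ, hη, H⟩ := apriori hjc hσ c ((C₀ + C₁) * R) hc
  obtain ⟨C₂, p₂, h₂⟩ := Tv_le_EE 0 40 (by norm_num)
  refine ⟨τ, hτ, fun s hs u hu hR => ?_⟩
  have hY : YY u ≤ (C₀ + C₁) * R := by
    have a0 := tp_nonneg 1 0 0 u
    have a1 := tp_nonneg 1 40 0 u
    have a2 := mul_le_mul_of_nonneg_left hR (add_nonneg p₀ p₁)
    have a3 := h₀ u
    have a4 := h₁ u
    unfold QQ at a2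
    unfold YY
    nlinarith
  have hsT : s ≤ min (s + τ) t1 := le_min (by linarith) hs.2
  have hjc' : CfJC cf (Icc s (min (s + τ) t1)) :=
    cf_mono hjc (Icc_subset_Icc hs.1 (min_le_right _ _))
  obtain ⟨Ku, -, hKu⟩ := Tv_fixed 2 u
  obtain ⟨n, hn, h⟩ := small_div Ku hη
  have hη' : ∀ k, EE 0 (u - Pr (k + n + 1) u) ≤ η := fun k =>
    (jackson (k + n) (by omega) u (hKu 1 one_pos le_rfl)).trans (h _ (by omega))
  have hex : ∀ k, ∃ G, Gal (k + n + 1) σ cf G s (min (s + τ) t1) ∧ G s = Pr (k + n + 1) u :=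
    fun k => gal_exists _ hσ hsT hjc' (Pr_mem _ u) (C₂ * ((C₀ + C₁) * R + 1))
      fun T' hT' G hG h0 x => (h₂ _ x).trans (mul_le_mul_of_nonneg_left
        (H s hs u hu hY _ (hη' k) T' hT'.2 G hG h0 T' ⟨hT'.1, le_rfl⟩).1 p₂)
  choose G hG using hex
  exact sol_of_gal hsT hjc' hσ (half_pos hc) u n G fun k => ⟨(hG k).1, (hG k).2,
    H s hs u hu hY _ (hη' k) _ le_rfl _ (hG k).1 (hG k).2⟩

/-- Existence on `[t0,t1]` from an a-priori bound: induction on `k` for `[t0, min (t0 + k τ) t1]`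
with `local_ex`, `Sol.single`, `Sol.concat`. -/
theorem global_ex (cf : ℝ → Cf) (t0 t1 : ℝ) (ht : t0 ≤ t1) (hjc : CfJC cf (Icc t0 t1)) (σ : ℝ)
    (hσ : σ = 0 ∨ σ = 1) (c R : ℝ) (hc : 0 < c) (u : SF)
    (hap : ∀ t' ∈ Icc t0 t1, ∀ G, Sol (fun t => rhs σ (cf t)) G (Icc t0 t') → G t0 = u →
      (∀ x, c ≤ ev x ((cf t').a - σ • (q * G t'))) ∧ QQ 1 0 (G t') ≤ R) :
    ∃ G, Sol (fun t => rhs σ (cf t)) G (Icc t0 t1) ∧ G t0 = u := by
  obtain ⟨τ, hτ, H⟩ := local_ex cf t0 t1 hjc σ hσ c R hc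
  have key : ∀ k : ℕ, ∃ G, Sol (fun t => rhs σ (cf t)) G (Icc t0 (min (t0 + k * τ) t1)) ∧
      G t0 = u := by
    intro k
    induction k with
    | zero =>
      refine ⟨fun _ => u, ?_, rfl⟩
      rw [Nat.cast_zero, zero_mul, add_zero, min_eq_left ht]
      exact Sol.single _ _ _
    | succ k ih =>
      obtain ⟨G, hG, h0⟩ := ih
      set s := min (t0 + k * τ) t1 with hs
      have hs0 : t0 ≤ s := le_min (le_add_of_nonneg_right (by positivity)) ht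
      have hs1 : s ≤ t1 := min_le_right _ _
      obtain ⟨a, b⟩ := hap s ⟨hs0, hs1⟩ G hG h0
      obtain ⟨G', hG', h1⟩ := H s ⟨hs0, hs1⟩ (G s) a b
      refine ⟨_, (Sol.concat hs0 (le_min (by linarith) hs1) hG hG' h1.symm).mono
        (Icc_subset_Icc_right (le_min ?_ (min_le_right _ _))), by simp [hs0, h0]⟩
      rcases le_total (t0 + k * τ) t1 with h | h
      · rw [hs, min_eq_left h]
        refine (min_le_left _ _).trans (le_of_eq ?_)
        push_cast; ring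
      · rw [hs, min_eq_right h]
        exact (min_le_right _ _).trans (by linarith)
  obtain ⟨k, hk⟩ := exists_nat_ge ((t1 - t0) / τ)
  obtain ⟨G, hG, h0⟩ := key k
  rw [div_le_iff₀ hτ] at hk
  rw [min_eq_right (by linarith)] at hG
  exact ⟨G, hG, h0⟩

end Crest.Agent.R213
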