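import Mathlib

/-! Row 213, block LE (owner helper24): abstract lemmas on the real line and the ODE with an
a-priori bound. -/

set_option autoImplicit false
open Set Filter Topology

noncomputable section
namespace Crest.Agent.R213.Lx

/-- Continuity argument.  `IsClosed.Icc_subset_of_forall_exists_gt` (or `..._mem_nhdsWithin`) for
`{t | ∀ r ∈ Icc s t, φ r ≤ B}`, or take the supremum of that set. -/
theorem bootstrap {s T A B : ℝ} {φ : ℝ → ℝ} (hφ : ContinuousOn φ (Icc s T)) (hAB : A < B)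
    (h0 : φ s ≤ B) (h : ∀ t ∈ Icc s T, (∀ r ∈ Icc s t, φ r ≤ B) → φ t ≤ A) :
    ∀ t ∈ Icc s T, φ t ≤ A := by
  have hcl : IsClosed ({t | φ t ≤ B} ∩ Icc s T) := by
    rw [inter_comm]
    exact hφ.preimage_isClosed_of_isClosed isClosed_Icc isClosed_Iic
  have key : Icc s T ⊆ {t | φ t ≤ B} := by
    refine hcl.Icc_subset_of_forall_mem_nhdsGT_of_Icc_subset h0 fun t ht hs => ?_
    have h1 : φ t < B := (h t (Ico_subset_Icc_self ht) fun r hr => hs hr).trans_lt hAB
    have h2 := ((hφ t (Ico_subset_Icc_self ht)).mono_of_mem_nhdsWithin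
      (Icc_mem_nhdsGT_of_mem ht)).eventually (gt_mem_nhds h1)
    exact h2.mono fun r hr => le_of_lt hr
  exact fun t ht => h t ht fun r hr => key ⟨hr.1, hr.2.trans ht.2⟩

/-- `image_le_of_deriv_right_le_deriv_boundary` with the affine function
(`HasDerivWithinAt.mono_of_mem_nhdsWithin`, `Icc_mem_nhdsGE_of_mem`). -/
theorem le_of_deriv_le {s T C : ℝ} {y y' : ℝ → ℝ}
    (hy : ∀ t ∈ Icc s T, HasDerivWithinAt y (y' t) (Icc s T) t) (h : ∀ t ∈ Icc s T, y' t ≤ C) :
    ∀ t ∈ Icc s T, y t ≤ y s + C * (t - s) := by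
  refine fun t ht => image_le_of_deriv_right_le_deriv_boundary (f := y) (f' := y')
    (fun r hr => (hy r hr).continuousWithinAt)
    (fun r hr => (hy r (Ico_subset_Icc_self hr)).mono_of_mem_nhdsWithin (Icc_mem_nhdsGE_of_mem hr))
    (B := fun r => y s + C * (r - s)) (B' := fun _ => C) (by simp) (by fun_prop)
    (fun r _ => ?_) (fun r hr => h r (Ico_subset_Icc_self hr)) ht
  simpa using ((((hasDerivAt_id r).sub_const s).const_mul C).const_add (y s)).hasDerivWithinAt

/-- `le_of_deriv_le` for `exp (-K (t - s)) * y t`, whose derivative is `≤ ε`. -/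
theorem gron {s T K ε : ℝ} {y y' : ℝ → ℝ} (hK : 0 ≤ K) (hε : 0 ≤ ε) (h0 : 0 ≤ y s)
    (hy : ∀ t ∈ Icc s T, HasDerivWithinAt y (y' t) (Icc s T) t)
    (h : ∀ t ∈ Icc s T, y' t ≤ K * y t + ε) :
    ∀ t ∈ Icc s T, y t ≤ (y s + ε * (T - s)) * Real.exp (K * (T - s)) := by
  intro t ht
  have h1 := le_of_deriv_le (s := s) (T := T) (C := ε)
    (y := fun r => Real.exp (-K * (r - s)) * y r)
    (y' := fun r => Real.exp (-K * (r - s)) * (-K * 1) * y r + Real.exp (-K * (r - s)) * y' r)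
    (fun r hr => ((((hasDerivAt_id r).sub_const s).const_mul (-K)).exp.hasDerivWithinAt).mul
      (hy r hr)) (fun r hr => by
      have a0 := Real.exp_pos (-K * (r - s))
      have a1 : Real.exp (-K * (r - s)) ≤ 1 :=
        Real.exp_le_one_iff.2 (by nlinarith [hr.1])
      have a2 := mul_le_mul_of_nonneg_left (h r hr) a0.le
      nlinarith) t ht
  simp only [sub_self, mul_zero, Real.exp_zero, one_mul] at h1
  have a1 : y t = Real.exp (K * (t - s)) * (Real.exp (-K * (t - s)) * y t) := by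
    rw [← mul_assoc, ← Real.exp_add]; simp
  have a2 : Real.exp (K * (t - s)) ≤ Real.exp (K * (T - s)) :=
    Real.exp_le_exp.2 (by nlinarith [ht.2])
  have a3 : y s + ε * (t - s) ≤ y s + ε * (T - s) := by nlinarith [ht.2]
  have a4 : 0 ≤ y s + ε * (T - s) := by nlinarith [ht.1, ht.2]
  rw [a1, mul_comm (y s + ε * (T - s))]
  exact (mul_le_mul_of_nonneg_left (h1.trans a3) (Real.exp_pos _).le).trans
    (mul_le_mul_of_nonneg_right a2 a4)

/-- The radial retraction `x ↦ (M / max M ‖x‖) • x`: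
`ρ x - ρ y = (M / m x) • (x - y) + (M / m x - M / m y) • y`, `|m x - m y| ≤ ‖x - y‖`, `‖y‖ ≤ m y`. -/
theorem exists_retraction (E : Type*) [NormedAddCommGroup E] [NormedSpace ℝ E] {M : ℝ}
    (hM : 0 < M) : ∃ ρ : E → E, LipschitzWith 2 ρ ∧ (∀ x, ‖ρ x‖ ≤ M) ∧ ∀ x, ‖x‖ ≤ M → ρ x = x := by
  have hm : ∀ x : E, 0 < max M ‖x‖ := fun x => hM.trans_le (le_max_left _ _)
  have h1 : ∀ x : E, M / max M ‖x‖ ≤ 1 := fun x => (div_le_one (hm x)).2 (le_max_left _ _)
  have h0 : ∀ x : E, 0 ≤ M / max M ‖x‖ := fun x => div_nonneg hM.le (hm x).le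
  refine ⟨fun x => (M / max M ‖x‖) • x, LipschitzWith.of_dist_le_mul fun x y => ?_, fun x => ?_,
    fun x hx => ?_⟩
  · rw [dist_eq_norm, dist_eq_norm]
    have e : (M / max M ‖x‖) • x - (M / max M ‖y‖) • y =
        (M / max M ‖x‖) • (x - y) + (M / max M ‖x‖ - M / max M ‖y‖) • y := by
      rw [smul_sub, sub_smul]; abel
    have a1 : ‖(M / max M ‖x‖) • (x - y)‖ ≤ ‖x - y‖ := by
      rw [norm_smul, Real.norm_of_nonneg (h0 x)]
      exact mul_le_of_le_one_left (norm_nonneg _) (h1 x)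
    have a2 : |max M ‖y‖ - max M ‖x‖| ≤ ‖x - y‖ := by
      rw [max_comm M, max_comm M, norm_sub_rev]
      exact (abs_max_sub_max_le_abs _ _ _).trans (abs_norm_sub_norm_le _ _)
    have a3 : ‖(M / max M ‖x‖ - M / max M ‖y‖) • y‖ ≤ ‖x - y‖ := by
      have e2 : M / max M ‖x‖ - M / max M ‖y‖ =
          M / max M ‖x‖ * (max M ‖y‖ - max M ‖x‖) / max M ‖y‖ := by
        have := (hm x).ne'
        have := (hm y).ne'
        field_simp
      rw [norm_smul, e2, Real.norm_eq_abs, abs_div, abs_mul, abs_of_nonneg (h0 x),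
        abs_of_pos (hm y), div_mul_eq_mul_div, div_le_iff₀ (hm y)]
      exact mul_le_mul ((mul_le_of_le_one_left (abs_nonneg _) (h1 x)).trans a2) (le_max_right _ _)
        (norm_nonneg _) (norm_nonneg _)
    rw [e]
    refine (norm_add_le _ _).trans ?_
    push_cast
    linarith
  · rw [norm_smul, Real.norm_of_nonneg (h0 x), div_mul_eq_mul_div, div_le_iff₀ (hm x)]
    exact mul_le_mul_of_nonneg_left (le_max_right _ _) hM.le
  · simp only [max_eq_left hx, div_self hM.ne', one_smul]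

/-- Solve `g' = F t (ρ g)` on all of `[s,T]` (`ρ` from `exists_retraction` with radius `|M| + ‖x₀‖ + 1`;
the field is bounded by some `L`: `‖F t x‖ ≤ ‖F t 0‖ + K ‖x‖`; `IsPicardLindelof` with `r = 0`,
`a = L (T - s)`, `IsPicardLindelof.exists_eq_forall_mem_Icc_hasDerivWithinAt₀`); then `bootstrap` for
`φ t = ‖g t‖` shows that the retraction is inactive. -/
theorem ode_apriori {E : Type*} [NormedAddCommGroup E] [NormedSpace ℝ E] [CompleteSpace E]
    (F : ℝ → E → E) {s T : ℝ} (hs : s ≤ T) (hc : ∀ x, ContinuousOn (fun t => F t x) (Icc s T))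
    (hl : ∀ M : ℝ, ∃ K, ∀ t ∈ Icc s T, LipschitzOnWith K (F t) (Metric.closedBall 0 M))
    (x₀ : E) (M : ℝ)
    (hap : ∀ T' ∈ Icc s T, ∀ g : ℝ → E, g s = x₀ →
      (∀ t ∈ Icc s T', HasDerivWithinAt g (F t (g t)) (Icc s T') t) → ‖g T'‖ ≤ M) :
    ∃ g : ℝ → E, g s = x₀ ∧ ∀ t ∈ Icc s T, HasDerivWithinAt g (F t (g t)) (Icc s T) t := by
  set B := |M| + ‖x₀‖ + 1 with hB
  have hB0 : 0 < B := by positivity
  obtain ⟨ρ, hρ, hρB, hρid⟩ := exists_retraction E hB0
  obtain ⟨K, hK⟩ := hl B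
  obtain ⟨L₀, hL₀⟩ := isCompact_Icc.exists_bound_of_continuousOn (hc 0)
  have hmem : ∀ x, ρ x ∈ Metric.closedBall (0 : E) B := fun x => mem_closedBall_zero_iff.2 (hρB x)
  set L : NNReal := ⟨|L₀| + K * B, by positivity⟩ with hL
  have hP : IsPicardLindelof (fun t x => F t (ρ x)) (⟨s, le_rfl, hs⟩ : Icc s T) x₀
      (L * ⟨T - s, sub_nonneg.2 hs⟩) 0 L (K * 2) :=
    { lipschitzOnWith := fun t ht =>
        (hK t ht).comp hρ.lipschitzOnWith fun x _ => hmem x
      continuousOn := fun x _ => hc _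
      norm_le := fun t ht x _ => by
        have a1 := (hK t ht).dist_le_mul _ (hmem x) 0 (Metric.mem_closedBall_self hB0.le)
        rw [dist_zero_right, dist_eq_norm] at a1
        have a2 := norm_le_norm_add_norm_sub' (F t (ρ x)) (F t 0)
        have a3 := mul_le_mul_of_nonneg_left (hρB x) K.2
        have a4 := (hL₀ t ht).trans (le_abs_self _)
        change _ ≤ |L₀| + K * B
        change (K : ℝ) * _ ≤ K * B at a3
        linarith
      mul_max_le := by
        change (L : ℝ) * max (T - s) (s - s) ≤ L * (T - s) - 0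
        rw [sub_self, max_eq_left (sub_nonneg.2 hs), sub_zero] }
  obtain ⟨g, g0, hg⟩ := hP.exists_eq_forall_mem_Icc_hasDerivWithinAt₀
  have g0' : g s = x₀ := g0
  have key := bootstrap (φ := fun t => ‖g t‖) (A := M) (B := B) (s := s) (T := T)
    (fun t ht => (hg t ht).continuousWithinAt.norm) (by linarith [le_abs_self M, norm_nonneg x₀])
    (by simp only [g0']; linarith [abs_nonneg M]) fun t ht hb => hap t ht g g0' fun r hr => by
      have := (hg r ⟨hr.1, hr.2.trans ht.2⟩).mono (Icc_subset_Icc_right ht.2)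
      rwa [hρid _ (hb r hr)] at this
  refine ⟨g, g0', fun t ht => ?_⟩
  have := hg t ht
  rwa [hρid _ ((key t ht).trans (by linarith [le_abs_self M, norm_nonneg x₀]))] at this

end Crest.Agent.R213.Lx
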